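import Mathlib

/-!
Ladder calculus, part 1: one operator.
`X` a first order operator, `T` a Laplacian on spheres in dimension `m`, `[[X,T],T]` relation.
-/

namespace Vale.Agent.P207.H468

open scoped InnerProductSpace

/-- eigenvalue of the sphere Laplacian on degree `p` in dimension `n` -/
def ev (n p : ℝ) : ℝ := p * (p + n - 2)

theorem ev_up_sub (n p : ℝ) : ev n (p + 1) - ev n p = 2 * p + n - 1 := by
  unfold ev; ring

theorem ev_dn_sub (n p : ℝ) : ev n (p - 1) - ev n p = -(2 * p + n - 3) := by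
  unfold ev; ring

theorem ev_ud_sub (n p : ℝ) : ev n (p + 1) - ev n (p - 1) = 2 * (2 * p + n - 2) := by
  unfold ev; ring

theorem ev_ne {n p p' : ℝ} (h : p ≠ p') (h2 : p + p' + n - 2 ≠ 0) : ev n p ≠ ev n p' := by
  intro h3
  have : (p - p') * (p + p' + n - 2) = 0 := by
    unfold ev at h3; linear_combination h3
  rcases mul_eq_zero.1 this with h4 | h4
  · exact h (sub_eq_zero.1 h4)
  · exact h2 h4

section One

variable {V : Type*} [AddCommGroup V] [Module ℝ V]

/-- projection on the `a`-eigenspace along the `b`-eigenspace -/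
noncomputable def pr (T : V →ₗ[ℝ] V) (a b : ℝ) : V →ₗ[ℝ] V := (a - b)⁻¹ • (T - b • LinearMap.id)

theorem pr_apply (T : V →ₗ[ℝ] V) (a b : ℝ) (w : V) : pr T a b w = (a - b)⁻¹ • (T w - b • w) := rfl

theorem pr_add_pr (T : V →ₗ[ℝ] V) {a b : ℝ} (h : a ≠ b) (w : V) : pr T a b w + pr T b a w = w := by
  simp only [pr_apply]
  have h1 : a - b ≠ 0 := sub_ne_zero.2 h
  have e : (b - a)⁻¹ = - (a - b)⁻¹ := by
    rw [← inv_neg]; ring_nf
  rw [e, neg_smul, ← sub_eq_add_neg, ← smul_sub]
  have e2 : T w - b • w - (T w - a • w) = (a - b) • w := by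
    rw [sub_smul]; abel
  rw [e2, smul_smul, inv_mul_cancel₀ h1, one_smul]

theorem T_pr (T : V →ₗ[ℝ] V) {a b : ℝ} {w : V}
    (hw : T (T w) = (a + b) • T w - (a * b) • w) : T (pr T a b w) = a • pr T a b w := by
  simp only [pr_apply]
  rw [map_smul, map_sub, map_smul, hw, smul_comm a]
  congr 1
  rw [smul_sub, smul_smul, add_smul]
  abel

/-- the fibre relation between `X` and a sphere Laplacian -/
def Rel (X T : V →ₗ[ℝ] V) (m : ℝ) : Prop :=
  ∀ f, X (T (T f)) - (2 : ℝ) • T (X (T f)) + T (T (X f))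
    = (2 : ℝ) • (T (X f) + X (T f)) + ((m - 1) * (m - 3)) • X f

/-- degree raising part of `X` on degree `p` -/
noncomputable def up (X T : V →ₗ[ℝ] V) (m p : ℝ) : V →ₗ[ℝ] V :=
  pr T (ev m (p + 1)) (ev m (p - 1)) ∘ₗ X

/-- degree lowering part of `X` on degree `p` -/
noncomputable def dn (X T : V →ₗ[ℝ] V) (m p : ℝ) : V →ₗ[ℝ] V :=
  pr T (ev m (p - 1)) (ev m (p + 1)) ∘ₗ X

variable {X T : V →ₗ[ℝ] V} {m p : ℝ} {f : V}

theorem split_rel (hR : Rel X T m) (hf : T f = ev m p • f) :
    T (T (X f)) = (ev m (p + 1) + ev m (p - 1)) • T (X f)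
      - (ev m (p + 1) * ev m (p - 1)) • X f := by
  have h := hR f
  simp only [hf, map_smul, smul_smul] at h
  have h2 : T (T (X f)) = (2 : ℝ) • (T (X f) + ev m p • X f) + ((m - 1) * (m - 3)) • X f
      - (ev m p * ev m p) • X f + (2 * ev m p) • T (X f) := by
    rw [← h]; abel
  rw [h2]
  have e1 : ev m (p + 1) + ev m (p - 1) = 2 + 2 * ev m p := by unfold ev; ring
  have e2 : ev m (p + 1) * ev m (p - 1) = ev m p * ev m p - 2 * ev m p - (m - 1) * (m - 3) := by
    unfold ev; ring
  rw [e1, e2]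
  module

theorem up_add_dn (hp : 2 * p + m - 2 ≠ 0) : up X T m p f + dn X T m p f = X f := by
  have h : ev m (p + 1) ≠ ev m (p - 1) := by
    rw [← sub_ne_zero, ev_ud_sub]; exact mul_ne_zero two_ne_zero hp
  exact pr_add_pr T h (X f)

theorem T_up (hR : Rel X T m) (hf : T f = ev m p • f) :
    T (up X T m p f) = ev m (p + 1) • up X T m p f :=
  T_pr T (split_rel hR hf)

theorem T_dn (hR : Rel X T m) (hf : T f = ev m p • f) :
    T (dn X T m p f) = ev m (p - 1) • dn X T m p f := by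
  refine T_pr T ?_
  rw [split_rel hR hf, add_comm (ev m (p - 1)), mul_comm (ev m (p - 1))]

/-- the quadratic expression in `X` and `T` -/
noncomputable def quad (X T : V →ₗ[ℝ] V) (f : V) : V :=
  - X (X f) + (1 / 2 : ℝ) • (X (X (T f)) - (2 : ℝ) • X (T (X f)) + T (X (X f)))

theorem quad_eq (hR : Rel X T m) (hf : T f = ev m p • f) (h1 : 2 * p + m - 2 ≠ 0)
    (h2 : 2 * p + m ≠ 0) (h3 : 2 * p + m - 4 ≠ 0) :
    quad X T f = -(2 * p + m) • dn X T m (p + 1) (up X T m p f)
      + (2 * p + m - 4) • up X T m (p - 1) (dn X T m p f) := by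
  set u := up X T m p f with hu
  set d := dn X T m p f with hd
  have hX : X f = u + d := (up_add_dn h1).symm
  have hTu : T u = ev m (p + 1) • u := T_up hR hf
  have hTd : T d = ev m (p - 1) • d := T_dn hR hf
  have hXu : X u = up X T m (p + 1) u + dn X T m (p + 1) u :=
    (up_add_dn (by intro h; apply h2; linarith)).symm
  have hXd : X d = up X T m (p - 1) d + dn X T m (p - 1) d :=
    (up_add_dn (by intro h; apply h3; linarith)).symm
  have k1 : T (up X T m (p + 1) u) = ev m (p + 1 + 1) • up X T m (p + 1) u := T_up hR hTu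
  have k2 : T (dn X T m (p + 1) u) = ev m (p + 1 - 1) • dn X T m (p + 1) u := T_dn hR hTu
  have k3 : T (up X T m (p - 1) d) = ev m (p - 1 + 1) • up X T m (p - 1) d := T_up hR hTd
  have k4 : T (dn X T m (p - 1) d) = ev m (p - 1 - 1) • dn X T m (p - 1) d := T_dn hR hTd
  unfold quad
  simp only [hf, map_smul, hX, map_add, hTu, hTd, hXu, hXd, k1, k2, k3, k4]
  generalize up X T m (p + 1) u = a1
  generalize dn X T m (p + 1) u = a2
  generalize up X T m (p - 1) d = a3
  generalize dn X T m (p - 1) d = a4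
  have e1 : ev m (p + 1 + 1) = 2 * ev m (p + 1) - ev m p + 2 := by unfold ev; ring
  have e2 : ev m (p + 1 - 1) = ev m p := by rw [add_sub_cancel_right]
  have e3 : ev m (p - 1 + 1) = ev m p := by rw [sub_add_cancel]
  have e4 : ev m (p - 1 - 1) = 2 * ev m (p - 1) - ev m p + 2 := by unfold ev; ring
  have e5 : ev m (p + 1) = ev m p + (2 * p + m - 1) := by linarith [ev_up_sub m p]
  have e6 : ev m (p - 1) = ev m p - (2 * p + m - 3) := by linarith [ev_dn_sub m p]
  rw [e1, e2, e3, e4, e5, e6]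
  module

end One

end Vale.Agent.P207.H468
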