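import Mathlib
import Vale.Agent.P207.H468.Ladder

/-!
Ladder calculus, part 2: two commuting Laplacians `E` (all vertical directions, dimension `n`) and
`D` (leaf directions, dimension `N`), the four components of `X` on a joint type `(p, q)`.
-/

namespace Vale.Agent.P207.H468

/-- abstract ladder structure -/
structure Lad (V : Type*) [AddCommGroup V] [Module ℝ V] (n N : ℝ) where
  ip : V →ₗ[ℝ] V →ₗ[ℝ] ℝ
  symm : ∀ f g, ip f g = ip g f
  X : V →ₗ[ℝ] V
  E : V →ₗ[ℝ] V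
  D : V →ₗ[ℝ] V
  skew : ∀ f g, ip (X f) g = - ip f (X g)
  symE : ∀ f g, ip (E f) g = ip f (E g)
  symD : ∀ f g, ip (D f) g = ip f (D g)
  comm : ∀ f, E (D f) = D (E f)
  relE : Rel X E n
  relD : Rel X D N
  hn : 3 ≤ n
  hN : 3 ≤ N
  lamX : ∀ f, quad X E (X f) - (2 : ℝ) • E (X f) - (6 : ℝ) • D (X f)
    = X (quad X E f - (2 : ℝ) • E f - (6 : ℝ) • D f)
  lamE : ∀ f, quad X E (E f) - (2 : ℝ) • E (E f) - (6 : ℝ) • D (E f)
    = E (quad X E f - (2 : ℝ) • E f - (6 : ℝ) • D f)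
  lamD : ∀ f, quad X E (D f) - (2 : ℝ) • E (D f) - (6 : ℝ) • D (D f)
    = D (quad X E f - (2 : ℝ) • E f - (6 : ℝ) • D f)
  lelX : ∀ f, quad X D (X f) - (8 : ℝ) • D (X f) = X (quad X D f - (8 : ℝ) • D f)
  lelD : ∀ f, quad X D (D f) - (8 : ℝ) • D (D f) = D (quad X D f - (8 : ℝ) • D f)

namespace Lad

variable {V : Type*} [AddCommGroup V] [Module ℝ V] {n N : ℝ} (S : Lad V n N)

/-- joint type `(p, q)` -/
def Ty (p q : ℝ) (f : V) : Prop := S.E f = ev n p • f ∧ S.D f = ev N q • f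

/-- the full Casimir -/
noncomputable def Lam (f : V) : V := quad S.X S.E f - (2 : ℝ) • S.E f - (6 : ℝ) • S.D f

/-- the leaf Casimir -/
noncomputable def LamL (f : V) : V := quad S.X S.D f - (8 : ℝ) • S.D f

variable {S} {p q r s : ℝ} {f g h : V}

theorem ip_add_left (f g h : V) : S.ip (f + g) h = S.ip f h + S.ip g h := by
  rw [map_add, LinearMap.add_apply]
theorem ip_sub_left (f g h : V) : S.ip (f - g) h = S.ip f h - S.ip g h := by
  rw [map_sub, LinearMap.sub_apply]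
theorem ip_neg_left (f h : V) : S.ip (-f) h = - S.ip f h := by
  rw [map_neg, LinearMap.neg_apply]
theorem ip_smul_left (f h : V) (c : ℝ) : S.ip (c • f) h = c * S.ip f h := by
  rw [map_smul, LinearMap.smul_apply, smul_eq_mul]
theorem ip_add_right (f g h : V) : S.ip f (g + h) = S.ip f g + S.ip f h := map_add _ _ _
theorem ip_sub_right (f g h : V) : S.ip f (g - h) = S.ip f g - S.ip f h := map_sub _ _ _
theorem ip_neg_right (f g : V) : S.ip f (-g) = - S.ip f g := map_neg _ _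
theorem ip_smul_right (f g : V) (c : ℝ) : S.ip f (c • g) = c * S.ip f g := by
  rw [map_smul, smul_eq_mul]
theorem ip_zero_left (h : V) : S.ip 0 h = 0 := by rw [map_zero, LinearMap.zero_apply]
theorem ip_zero_right (h : V) : S.ip h 0 = 0 := map_zero _
theorem ip_comm (f g : V) : S.ip g f = S.ip f g := S.symm g f

theorem Lam_X (f : V) : S.Lam (S.X f) = S.X (S.Lam f) := S.lamX f
theorem Lam_E (f : V) : S.Lam (S.E f) = S.E (S.Lam f) := S.lamE f
theorem Lam_D (f : V) : S.Lam (S.D f) = S.D (S.Lam f) := S.lamD f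
theorem LamL_X (f : V) : S.LamL (S.X f) = S.X (S.LamL f) := S.lelX f
theorem LamL_D (f : V) : S.LamL (S.D f) = S.D (S.LamL f) := S.lelD f

theorem quad_add (X T : V →ₗ[ℝ] V) (f g : V) : quad X T (f + g) = quad X T f + quad X T g := by
  unfold quad
  simp only [map_add]
  module

theorem quad_smul (X T : V →ₗ[ℝ] V) (c : ℝ) (f : V) : quad X T (c • f) = c • quad X T f := by
  unfold quad
  simp only [map_smul]
  module

theorem Lam_add (f g : V) : S.Lam (f + g) = S.Lam f + S.Lam g := by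
  unfold Lam; rw [quad_add, map_add, map_add]; module

theorem Lam_smul (c : ℝ) (f : V) : S.Lam (c • f) = c • S.Lam f := by
  unfold Lam; rw [quad_smul, map_smul, map_smul]; module

theorem LamL_add (f g : V) : S.LamL (f + g) = S.LamL f + S.LamL g := by
  unfold LamL; rw [quad_add, map_add]; module

theorem LamL_smul (c : ℝ) (f : V) : S.LamL (c • f) = c • S.LamL f := by
  unfold LamL; rw [quad_smul, map_smul]; module

theorem Lam_sub (f g : V) : S.Lam (f - g) = S.Lam f - S.Lam g := by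
  have : f - g = f + (-1 : ℝ) • g := by module
  rw [this, Lam_add, Lam_smul]; module

theorem LamL_sub (f g : V) : S.LamL (f - g) = S.LamL f - S.LamL g := by
  have : f - g = f + (-1 : ℝ) • g := by module
  rw [this, LamL_add, LamL_smul]; module

theorem skew' (f g : V) : S.ip f (S.X g) = - S.ip (S.X f) g := by rw [S.skew]; ring

theorem Lam_symm (f g : V) : S.ip (S.Lam f) g = S.ip f (S.Lam g) := by
  unfold Lam quad
  simp only [ip_sub_left, ip_sub_right, ip_add_left, ip_add_right, ip_neg_left,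
    ip_neg_right, ip_smul_left, ip_smul_right, S.skew, S.symE, S.symD]
  ring

theorem LamL_symm (f g : V) : S.ip (S.LamL f) g = S.ip f (S.LamL g) := by
  unfold LamL quad
  simp only [ip_sub_left, ip_sub_right, ip_add_left, ip_add_right, ip_neg_left,
    ip_neg_right, ip_smul_left, ip_smul_right, S.skew, S.symD]
  ring

theorem orthE {a b : ℝ} (hab : a ≠ b) (hf : S.E f = a • f) (hg : S.E g = b • g) :
    S.ip f g = 0 := by
  have h := S.symE f g
  rw [hf, hg, ip_smul_left, ip_smul_right] at h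
  have h2 : (a - b) * S.ip f g = 0 := by linarith
  rcases mul_eq_zero.1 h2 with h3 | h3
  · exact absurd (sub_eq_zero.1 h3) hab
  · exact h3

theorem orthD {a b : ℝ} (hab : a ≠ b) (hf : S.D f = a • f) (hg : S.D g = b • g) :
    S.ip f g = 0 := by
  have h := S.symD f g
  rw [hf, hg, ip_smul_left, ip_smul_right] at h
  have h2 : (a - b) * S.ip f g = 0 := by linarith
  rcases mul_eq_zero.1 h2 with h3 | h3
  · exact absurd (sub_eq_zero.1 h3) hab
  · exact h3

theorem Ty.add (hf : S.Ty p q f) (hg : S.Ty p q g) : S.Ty p q (f + g) := by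
  refine ⟨?_, ?_⟩
  · rw [map_add, hf.1, hg.1, smul_add]
  · rw [map_add, hf.2, hg.2, smul_add]

theorem Ty.smul (c : ℝ) (hf : S.Ty p q f) : S.Ty p q (c • f) := by
  refine ⟨?_, ?_⟩
  · rw [map_smul, hf.1, smul_comm]
  · rw [map_smul, hf.2, smul_comm]

theorem Ty.neg (hf : S.Ty p q f) : S.Ty p q (-f) := by
  have h := hf.smul (-1 : ℝ)
  rwa [neg_one_smul] at h

theorem Ty.sub (hf : S.Ty p q f) (hg : S.Ty p q g) : S.Ty p q (f - g) := by
  rw [sub_eq_add_neg]; exact hf.add hg.neg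

theorem Ty.zero : S.Ty p q (0 : V) := by
  refine ⟨?_, ?_⟩ <;> simp

theorem Ty.cast {p' q' : ℝ} (hf : S.Ty p q f) (hp : p = p') (hq : q = q') : S.Ty p' q' f := by
  subst hp; subst hq; exact hf

theorem DD_pr {a b c1 c2 : ℝ} {w : V} (h : S.D (S.D w) = c1 • S.D w - c2 • w) :
    S.D (S.D (pr S.E a b w)) = c1 • S.D (pr S.E a b w) - c2 • pr S.E a b w := by
  simp only [pr_apply, map_smul, map_sub, ← S.comm, h]
  module

theorem E_pr {a b c : ℝ} {w : V} (h : S.E w = c • w) :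
    S.E (pr S.D a b w) = c • pr S.D a b w := by
  simp only [pr_apply, map_smul, map_sub, S.comm, h]
  module

variable (S)

/-- component `(p+1, q+1)` of `X` on type `(p, q)` -/
noncomputable def pp (p q : ℝ) : V →ₗ[ℝ] V :=
  pr S.D (ev N (q + 1)) (ev N (q - 1)) ∘ₗ up S.X S.E n p
/-- component `(p+1, q-1)` -/
noncomputable def pm (p q : ℝ) : V →ₗ[ℝ] V :=
  pr S.D (ev N (q - 1)) (ev N (q + 1)) ∘ₗ up S.X S.E n p
/-- component `(p-1, q+1)` -/
noncomputable def mp (p q : ℝ) : V →ₗ[ℝ] V :=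
  pr S.D (ev N (q + 1)) (ev N (q - 1)) ∘ₗ dn S.X S.E n p
/-- component `(p-1, q-1)` -/
noncomputable def mm (p q : ℝ) : V →ₗ[ℝ] V :=
  pr S.D (ev N (q - 1)) (ev N (q + 1)) ∘ₗ dn S.X S.E n p

variable {S}

theorem DD_up (hf : S.Ty p q f) : S.D (S.D (up S.X S.E n p f)) =
    (ev N (q + 1) + ev N (q - 1)) • S.D (up S.X S.E n p f)
      - (ev N (q + 1) * ev N (q - 1)) • up S.X S.E n p f :=
  DD_pr (split_rel S.relD hf.2)

theorem DD_dn (hf : S.Ty p q f) : S.D (S.D (dn S.X S.E n p f)) =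
    (ev N (q + 1) + ev N (q - 1)) • S.D (dn S.X S.E n p f)
      - (ev N (q + 1) * ev N (q - 1)) • dn S.X S.E n p f :=
  DD_pr (split_rel S.relD hf.2)

theorem ty_pp (hf : S.Ty p q f) : S.Ty (p + 1) (q + 1) (S.pp p q f) :=
  ⟨E_pr (T_up S.relE hf.1), T_pr S.D (DD_up hf)⟩

theorem ty_pm (hf : S.Ty p q f) : S.Ty (p + 1) (q - 1) (S.pm p q f) := by
  refine ⟨E_pr (T_up S.relE hf.1), T_pr S.D ?_⟩
  rw [DD_up hf, add_comm (ev N (q - 1)), mul_comm (ev N (q - 1))]

theorem ty_mp (hf : S.Ty p q f) : S.Ty (p - 1) (q + 1) (S.mp p q f) :=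
  ⟨E_pr (T_dn S.relE hf.1), T_pr S.D (DD_dn hf)⟩

theorem ty_mm (hf : S.Ty p q f) : S.Ty (p - 1) (q - 1) (S.mm p q f) := by
  refine ⟨E_pr (T_dn S.relE hf.1), T_pr S.D ?_⟩
  rw [DD_dn hf, add_comm (ev N (q - 1)), mul_comm (ev N (q - 1))]

theorem evN_ud (hq : 2 * q + N - 2 ≠ 0) : ev N (q + 1) ≠ ev N (q - 1) := by
  rw [← sub_ne_zero, ev_ud_sub]; exact mul_ne_zero two_ne_zero hq

theorem pp_add_pm (hq : 2 * q + N - 2 ≠ 0) (f : V) :
    S.pp p q f + S.pm p q f = up S.X S.E n p f :=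
  pr_add_pr S.D (evN_ud hq) _

theorem mp_add_mm (hq : 2 * q + N - 2 ≠ 0) (f : V) :
    S.mp p q f + S.mm p q f = dn S.X S.E n p f :=
  pr_add_pr S.D (evN_ud hq) _

theorem pp_add_mp (hp : 2 * p + n - 2 ≠ 0) (f : V) :
    S.pp p q f + S.mp p q f = up S.X S.D N q f := by
  show pr S.D _ _ (up S.X S.E n p f) + pr S.D _ _ (dn S.X S.E n p f) = pr S.D _ _ (S.X f)
  rw [← map_add, up_add_dn hp]

theorem pm_add_mm (hp : 2 * p + n - 2 ≠ 0) (f : V) :
    S.pm p q f + S.mm p q f = dn S.X S.D N q f := by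
  show pr S.D _ _ (up S.X S.E n p f) + pr S.D _ _ (dn S.X S.E n p f) = pr S.D _ _ (S.X f)
  rw [← map_add, up_add_dn hp]

theorem X_eq (hp : 2 * p + n - 2 ≠ 0) (hq : 2 * q + N - 2 ≠ 0) (f : V) :
    S.X f = S.pp p q f + S.pm p q f + S.mp p q f + S.mm p q f := by
  rw [pp_add_pm hq, add_assoc, mp_add_mm hq, up_add_dn hp]

end Lad

end Vale.Agent.P207.H468
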