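import Mathlib
import Vale.Agent.P207.H468.Lad

/-!
Ladder calculus, part 3: the relations between the four components of `X`.
-/

namespace Vale.Agent.P207.H468

theorem ev_ne_of {n p p' : ℝ} (h : p < p') (h2 : 0 < p + p' + n - 2) : ev n p ≠ ev n p' :=
  ev_ne h.ne h2.ne'

theorem ev_ne_of' {n p p' : ℝ} (h : p < p') (h2 : 0 < p + p' + n - 2) : ev n p' ≠ ev n p :=
  (ev_ne_of h h2).symm

namespace Lad

variable {V : Type*} [AddCommGroup V] [Module ℝ V] {n N : ℝ} {S : Lad V n N}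
variable {p q r s : ℝ} {f g h : V}

theorem sep3 {T : V →ₗ[ℝ] V} {a b c : ℝ} {u v w : V} (hu : T u = a • u) (hv : T v = b • v)
    (hw : T w = c • w) (hab : a ≠ b) (hac : a ≠ c) (hbc : b ≠ c) (h : u + v + w = 0) :
    u = 0 ∧ v = 0 ∧ w = 0 := by
  have h1 := congrArg T h
  simp only [map_add, hu, hv, hw, map_zero] at h1
  have h2 := congrArg T h1
  simp only [map_add, map_smul, hu, hv, hw, map_zero, smul_smul] at h2
  have k1 : ((a - b) * (a - c)) • u = 0 := by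
    have e : ((a - b) * (a - c)) • u = ((a * a) • u + (b * b) • v + (c * c) • w)
        - (b + c) • (a • u + b • v + c • w) + (b * c) • (u + v + w) := by module
    rw [e, h2, h1, h]; simp
  have k2 : ((b - a) * (b - c)) • v = 0 := by
    have e : ((b - a) * (b - c)) • v = ((a * a) • u + (b * b) • v + (c * c) • w)
        - (a + c) • (a • u + b • v + c • w) + (a * c) • (u + v + w) := by module
    rw [e, h2, h1, h]; simp
  have hu0 : u = 0 := by
    rcases smul_eq_zero.1 k1 with h3 | h3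
    · exact absurd h3 (mul_ne_zero (sub_ne_zero.2 hab) (sub_ne_zero.2 hac))
    · exact h3
  have hv0 : v = 0 := by
    rcases smul_eq_zero.1 k2 with h3 | h3
    · exact absurd h3 (mul_ne_zero (sub_ne_zero.2 hab.symm) (sub_ne_zero.2 hbc))
    · exact h3
  refine ⟨hu0, hv0, ?_⟩
  rw [hu0, hv0, zero_add, zero_add] at h
  exact h

theorem sepD {a b c : ℝ} {u v w : V} (hu : S.D u = a • u) (hv : S.D v = b • v)
    (hw : S.D w = c • w) (hab : a ≠ b) (hac : a ≠ c) (hbc : b ≠ c) (h : u + v + w = 0) :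
    u = 0 ∧ v = 0 ∧ w = 0 := sep3 hu hv hw hab hac hbc h

theorem sepE {a b c : ℝ} {u v w : V} (hu : S.E u = a • u) (hv : S.E v = b • v)
    (hw : S.E w = c • w) (hab : a ≠ b) (hac : a ≠ c) (hbc : b ≠ c) (h : u + v + w = 0) :
    u = 0 ∧ v = 0 ∧ w = 0 := sep3 hu hv hw hab hac hbc h

/-- `pr` commutes with everything that commutes with `T` -/
theorem Lam_prE (a b : ℝ) (f : V) : S.Lam (pr S.E a b f) = pr S.E a b (S.Lam f) := by
  simp only [pr_apply, Lam_smul, Lam_sub, Lam_E]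

theorem Lam_prD (a b : ℝ) (f : V) : S.Lam (pr S.D a b f) = pr S.D a b (S.Lam f) := by
  simp only [pr_apply, Lam_smul, Lam_sub, Lam_D]

theorem LamL_prD (a b : ℝ) (f : V) : S.LamL (pr S.D a b f) = pr S.D a b (S.LamL f) := by
  simp only [pr_apply, LamL_smul, LamL_sub, LamL_D]

theorem Lam_pp (f : V) : S.Lam (S.pp p q f) = S.pp p q (S.Lam f) := by
  show S.Lam (pr S.D _ _ (pr S.E _ _ (S.X f))) = pr S.D _ _ (pr S.E _ _ (S.X (S.Lam f)))
  rw [Lam_prD, Lam_prE, Lam_X]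

theorem Lam_pm (f : V) : S.Lam (S.pm p q f) = S.pm p q (S.Lam f) := by
  show S.Lam (pr S.D _ _ (pr S.E _ _ (S.X f))) = pr S.D _ _ (pr S.E _ _ (S.X (S.Lam f)))
  rw [Lam_prD, Lam_prE, Lam_X]

theorem Lam_mp (f : V) : S.Lam (S.mp p q f) = S.mp p q (S.Lam f) := by
  show S.Lam (pr S.D _ _ (pr S.E _ _ (S.X f))) = pr S.D _ _ (pr S.E _ _ (S.X (S.Lam f)))
  rw [Lam_prD, Lam_prE, Lam_X]

theorem Lam_mm (f : V) : S.Lam (S.mm p q f) = S.mm p q (S.Lam f) := by
  show S.Lam (pr S.D _ _ (pr S.E _ _ (S.X f))) = pr S.D _ _ (pr S.E _ _ (S.X (S.Lam f)))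
  rw [Lam_prD, Lam_prE, Lam_X]

theorem LamL_upD (f : V) : S.LamL (up S.X S.D N q f) = up S.X S.D N q (S.LamL f) := by
  show S.LamL (pr S.D _ _ (S.X f)) = pr S.D _ _ (S.X (S.LamL f))
  rw [LamL_prD, LamL_X]

theorem LamL_dnD (f : V) : S.LamL (dn S.X S.D N q f) = dn S.X S.D N q (S.LamL f) := by
  show S.LamL (pr S.D _ _ (S.X f)) = pr S.D _ _ (S.X (S.LamL f))
  rw [LamL_prD, LamL_X]

theorem E_Lam (hf : S.Ty p q f) : S.E (S.Lam f) = ev n p • S.Lam f := by
  rw [← Lam_E, hf.1, Lam_smul]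

theorem D_Lam (hf : S.Ty p q f) : S.D (S.Lam f) = ev N q • S.Lam f := by
  rw [← Lam_D, hf.2, Lam_smul]

theorem ty_Lam (hf : S.Ty p q f) : S.Ty p q (S.Lam f) := ⟨E_Lam hf, D_Lam hf⟩

/-- expansion of `Lam` on type `(p, q)` by components -/
theorem Lam_expand (hf : S.Ty p q f) (hp : 0 < 2 * p + n - 4) (hq : 0 < 2 * q + N - 4) :
    S.Lam f = (-(2 * p + n) • S.mp (p + 1) (q + 1) (S.pp p q f)
        + (2 * p + n - 4) • S.pp (p - 1) (q + 1) (S.mp p q f))
      + (-(2 * p + n) • (S.mm (p + 1) (q + 1) (S.pp p q f) + S.mp (p + 1) (q - 1) (S.pm p q f))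
        + (2 * p + n - 4) • (S.pm (p - 1) (q + 1) (S.mp p q f)
            + S.pp (p - 1) (q - 1) (S.mm p q f))
        - (2 * ev n p + 6 * ev N q) • f)
      + (-(2 * p + n) • S.mm (p + 1) (q - 1) (S.pm p q f)
        + (2 * p + n - 4) • S.pm (p - 1) (q - 1) (S.mm p q f)) := by
  have hq1 : 2 * q + N - 2 ≠ 0 := by intro h; linarith
  have hq2 : 2 * (q + 1) + N - 2 ≠ 0 := by intro h; linarith
  have hq3 : 2 * (q - 1) + N - 2 ≠ 0 := by intro h; linarith
  have hp1 : 2 * p + n - 2 ≠ 0 := by intro h; linarith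
  have hp2 : 2 * p + n ≠ 0 := by intro h; linarith
  unfold Lam
  rw [quad_eq S.relE hf.1 hp1 hp2 hp.ne', ← pp_add_pm hq1 f, ← mp_add_mm hq1 f,
    hf.1, hf.2, map_add, map_add]
  rw [← mp_add_mm hq2 (S.pp p q f), ← mp_add_mm hq3 (S.pm p q f),
    ← pp_add_pm hq2 (S.mp p q f), ← pp_add_pm hq3 (S.mm p q f)]
  module

theorem R_all (hf : S.Ty p q f) (hp : 0 < 2 * p + n - 4) (hq : 0 < 2 * q + N - 4) :
    (-(2 * p + n) • S.mp (p + 1) (q + 1) (S.pp p q f)
        + (2 * p + n - 4) • S.pp (p - 1) (q + 1) (S.mp p q f) = 0) ∧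
    (-(2 * p + n) • (S.mm (p + 1) (q + 1) (S.pp p q f) + S.mp (p + 1) (q - 1) (S.pm p q f))
        + (2 * p + n - 4) • (S.pm (p - 1) (q + 1) (S.mp p q f)
            + S.pp (p - 1) (q - 1) (S.mm p q f))
        - (2 * ev n p + 6 * ev N q) • f - S.Lam f = 0) ∧
    (-(2 * p + n) • S.mm (p + 1) (q - 1) (S.pm p q f)
        + (2 * p + n - 4) • S.pm (p - 1) (q - 1) (S.mm p q f) = 0) := by
  have h := Lam_expand hf hp hq
  have e1 : (p : ℝ) + 1 - 1 = p := by ring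
  have e2 : (p : ℝ) - 1 + 1 = p := by ring
  have t1 : S.Ty p (q + 1 + 1) (-(2 * p + n) • S.mp (p + 1) (q + 1) (S.pp p q f)
        + (2 * p + n - 4) • S.pp (p - 1) (q + 1) (S.mp p q f)) :=
    (((ty_mp (ty_pp hf)).cast e1 rfl).smul _).add (((ty_pp (ty_mp hf)).cast e2 rfl).smul _)
  have t3 : S.Ty p (q - 1 - 1) (-(2 * p + n) • S.mm (p + 1) (q - 1) (S.pm p q f)
        + (2 * p + n - 4) • S.pm (p - 1) (q - 1) (S.mm p q f)) :=
    (((ty_mm (ty_pm hf)).cast e1 rfl).smul _).add (((ty_pm (ty_mm hf)).cast e2 rfl).smul _)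
  have e3 : (q : ℝ) + 1 - 1 = q := by ring
  have e4 : (q : ℝ) - 1 + 1 = q := by ring
  have t2 : S.Ty p q (-(2 * p + n) • (S.mm (p + 1) (q + 1) (S.pp p q f)
        + S.mp (p + 1) (q - 1) (S.pm p q f))
        + (2 * p + n - 4) • (S.pm (p - 1) (q + 1) (S.mp p q f)
            + S.pp (p - 1) (q - 1) (S.mm p q f))
        - (2 * ev n p + 6 * ev N q) • f - S.Lam f) := by
    refine Ty.sub (Ty.sub (Ty.add (Ty.smul _ (Ty.add ?_ ?_)) (Ty.smul _ (Ty.add ?_ ?_)))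
      (hf.smul _)) (ty_Lam hf)
    · exact (ty_mm (ty_pp hf)).cast e1 e3
    · exact (ty_mp (ty_pm hf)).cast e1 e4
    · exact (ty_pm (ty_mp hf)).cast e2 e3
    · exact (ty_pp (ty_mm hf)).cast e2 e4
  refine sepD t1.2 t2.2 t3.2 (ev_ne_of' (by linarith) (by linarith))
    (ev_ne_of' (by linarith) (by linarith)) (ev_ne_of' (by linarith) (by linarith)) ?_
  rw [← sub_eq_zero.2 h.symm]
  abel

/-- relation in leaf degree `+2` -/
theorem R_pp (hf : S.Ty p q f) (hp : 0 < 2 * p + n - 4) (hq : 0 < 2 * q + N - 4) :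
    (2 * p + n) • S.mp (p + 1) (q + 1) (S.pp p q f)
      = (2 * p + n - 4) • S.pp (p - 1) (q + 1) (S.mp p q f) := by
  have h := (R_all hf hp hq).1
  rw [neg_smul, neg_add_eq_zero] at h
  exact h

/-- relation in leaf degree `-2` -/
theorem R_mm (hf : S.Ty p q f) (hp : 0 < 2 * p + n - 4) (hq : 0 < 2 * q + N - 4) :
    (2 * p + n) • S.mm (p + 1) (q - 1) (S.pm p q f)
      = (2 * p + n - 4) • S.pm (p - 1) (q - 1) (S.mm p q f) := by
  have h := (R_all hf hp hq).2.2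
  rw [neg_smul, neg_add_eq_zero] at h
  exact h

/-- relation in leaf degree `0` -/
theorem R_zero (hf : S.Ty p q f) (hp : 0 < 2 * p + n - 4) (hq : 0 < 2 * q + N - 4) :
    (2 * p + n) • (S.mm (p + 1) (q + 1) (S.pp p q f) + S.mp (p + 1) (q - 1) (S.pm p q f))
      = (2 * p + n - 4) • (S.pm (p - 1) (q + 1) (S.mp p q f)
            + S.pp (p - 1) (q - 1) (S.mm p q f))
        - (2 * ev n p + 6 * ev N q) • f - S.Lam f := by
  have h := (R_all hf hp hq).2.1
  rw [← sub_eq_zero, ← neg_eq_zero, ← h]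
  module

/-- the leaf Casimir on type `(p, q)` -/
theorem LamL_expand (hf : S.Ty p q f) (hp : 0 < 2 * p + n - 4) (hq : 0 < 2 * q + N - 4) :
    S.LamL f = (-(2 * q + N) • S.pm (p + 1) (q + 1) (S.pp p q f)
        + (2 * q + N - 4) • S.pp (p + 1) (q - 1) (S.pm p q f))
      + (-(2 * q + N) • (S.mm (p + 1) (q + 1) (S.pp p q f) + S.pm (p - 1) (q + 1) (S.mp p q f))
        + (2 * q + N - 4) • (S.mp (p + 1) (q - 1) (S.pm p q f)
            + S.pp (p - 1) (q - 1) (S.mm p q f))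
        - (8 * ev N q) • f)
      + (-(2 * q + N) • S.mm (p - 1) (q + 1) (S.mp p q f)
        + (2 * q + N - 4) • S.mp (p - 1) (q - 1) (S.mm p q f)) := by
  have hp1 : 2 * p + n - 2 ≠ 0 := by intro h; linarith
  have hp2 : 2 * (p + 1) + n - 2 ≠ 0 := by intro h; linarith
  have hp3 : 2 * (p - 1) + n - 2 ≠ 0 := by intro h; linarith
  have hq1 : 2 * q + N - 2 ≠ 0 := by intro h; linarith
  have hq2 : 2 * q + N ≠ 0 := by intro h; linarith
  unfold LamL
  rw [quad_eq S.relD hf.2 hq1 hq2 hq.ne', ← pp_add_mp hp1 f, ← pm_add_mm hp1 f,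
    hf.2, map_add, map_add]
  rw [← pm_add_mm hp2 (S.pp p q f), ← pm_add_mm hp3 (S.mp p q f),
    ← pp_add_mp hp2 (S.pm p q f), ← pp_add_mp hp3 (S.mm p q f)]
  module

theorem adj_pp (hf : S.Ty p q f) (hg : S.Ty (p + 1) (q + 1) g) (hp : 0 < 2 * p + n - 2)
    (hq : 0 < 2 * q + N - 2) : S.ip (S.pp p q f) g = - S.ip f (S.mm (p + 1) (q + 1) g) := by
  have h := S.skew f g
  have hp' : 2 * (p + 1) + n - 2 ≠ 0 := by intro h; linarith
  have hq' : 2 * (q + 1) + N - 2 ≠ 0 := by intro h; linarith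
  rw [X_eq hp.ne' hq.ne' f, X_eq hp' hq' g, ip_add_left, ip_add_left, ip_add_left,
    ip_add_right, ip_add_right, ip_add_right] at h
  rw [orthD (ev_ne_of (by linarith) (by linarith)) (ty_pm hf).2 hg.2,
    orthE (ev_ne_of (by linarith) (by linarith)) (ty_mp hf).1 hg.1,
    orthE (ev_ne_of (by linarith) (by linarith)) (ty_mm hf).1 hg.1,
    orthE (ev_ne_of (by linarith) (by linarith)) hf.1 (ty_pp hg).1,
    orthE (ev_ne_of (by linarith) (by linarith)) hf.1 (ty_pm hg).1,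
    orthD (ev_ne_of (by linarith) (by linarith)) hf.2 (ty_mp hg).2] at h
  linarith

theorem adj_pm (hf : S.Ty p q f) (hg : S.Ty (p + 1) (q - 1) g) (hp : 0 < 2 * p + n - 2)
    (hq : 0 < 2 * q + N - 4) : S.ip (S.pm p q f) g = - S.ip f (S.mp (p + 1) (q - 1) g) := by
  have h := S.skew f g
  have hq0 : 2 * q + N - 2 ≠ 0 := by intro h; linarith
  have hp' : 2 * (p + 1) + n - 2 ≠ 0 := by intro h; linarith
  have hq' : 2 * (q - 1) + N - 2 ≠ 0 := by intro h; linarith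
  rw [X_eq hp.ne' hq0 f, X_eq hp' hq' g, ip_add_left, ip_add_left, ip_add_left,
    ip_add_right, ip_add_right, ip_add_right] at h
  rw [orthD (ev_ne_of' (by linarith) (by linarith)) (ty_pp hf).2 hg.2,
    orthE (ev_ne_of (by linarith) (by linarith)) (ty_mp hf).1 hg.1,
    orthE (ev_ne_of (by linarith) (by linarith)) (ty_mm hf).1 hg.1,
    orthE (ev_ne_of (by linarith) (by linarith)) hf.1 (ty_pp hg).1,
    orthE (ev_ne_of (by linarith) (by linarith)) hf.1 (ty_pm hg).1,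
    orthD (ev_ne_of' (by linarith) (by linarith)) hf.2 (ty_mm hg).2] at h
  linarith

end Lad

end Vale.Agent.P207.H468
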