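import Mathlib
import Vale.Agent.P207.H468.Rels

/-!
Ladder calculus, part 4: the tower `x_k` of types `(p, p)`, `p = k + 2`, over a joint eigenvector.
-/

namespace Vale.Agent.P207.H468

namespace Lad

variable {V : Type*} [AddCommGroup V] [Module ℝ V] {n N : ℝ} {S : Lad V n N}
variable {p q r s : ℝ} {f g h : V}

/-- one stage of the tower: `x` has type `(p, p)`, `xm` is the previous stage, `ym` the leaf
degree lowering part of the previous stage -/
structure Tw (S : Lad V n N) (L p α β βm : ℝ) (x xm ym : V) : Prop where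
  hp : 2 ≤ p
  tx : S.Ty p p x
  txm : S.Ty (p - 1) (p - 1) xm
  tym : S.Ty p (p - 2) ym
  x_mp : S.mp p p x = 0
  x_mm : S.mm p p x = -α • xm
  up_pp : α • S.pp (p - 1) (p - 1) xm = α • x
  up_pm : α • S.pm (p - 1) (p - 1) xm = α • ym
  up_mp : α • S.mp (p - 1) (p - 1) xm = 0
  ym_mp : α • S.mp p (p - 2) ym = -(α * βm) • xm
  lam : S.Lam x = L • x
  bb : S.mp (p + 1) (p - 1) (S.pm p p x) = -β • x

/-- `(2p+n) (α⁺ + β) = L + 2 ev n p + 6 ev N p + (2p+n-4) α` -/
noncomputable def alN (n N L p α β : ℝ) : ℝ :=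
  (L + 2 * ev n p + 6 * ev N p + (2 * p + n - 4) * α) / (2 * p + n) - β

/-- eigenvalue of the leaf Casimir -/
noncomputable def ell (n N L p α β : ℝ) : ℝ :=
  (2 * p + N) * alN n N L p α β - (2 * p + N - 4) * (β + α) - 8 * ev N p

/-- next value of `β` -/
noncomputable def beN (n N L p α β : ℝ) : ℝ :=
  ((2 * p + 2 + N) * ((L + 2 * ev n (p + 1) + 6 * ev N (p + 1)
      + (2 * p + n - 2) * alN n N L p α β) / (2 * p + 2 + n))
    - (2 * p + N - 2) * alN n N L p α β - 8 * ev N (p + 1) - ell n N L p α β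
    + (2 * p + N - 4) * ((2 * p + n - 2) / (2 * p + n + 2)) * β) / (3 * (2 * p + N))

namespace Tw

variable {L α β βm : ℝ} {x xm ym : V}

theorem pos1 (T : Tw S L p α β βm x xm ym) : 0 < 2 * p + n - 4 := by
  have := T.hp; have := S.hn; linarith

theorem pos2 (T : Tw S L p α β βm x xm ym) : 0 < 2 * p + N - 4 := by
  have := T.hp; have := S.hN; linarith

/-- `x⁺` has no `(p, p+2)` component below -/
theorem xp_mp (T : Tw S L p α β βm x xm ym) : S.mp (p + 1) (p + 1) (S.pp p p x) = 0 := by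
  have h := R_pp T.tx T.pos1 T.pos2
  rw [T.x_mp, map_zero, smul_zero] at h
  rcases smul_eq_zero.1 h with h1 | h1
  · have := T.pos1; exfalso; linarith
  · exact h1

/-- the `(p, p-2)` component below `y⁺` -/
theorem yp_mm (T : Tw S L p α β βm x xm ym) :
    S.mm (p + 1) (p - 1) (S.pm p p x) = -((2 * p + n - 4) / (2 * p + n) * α) • ym := by
  have h := R_mm T.tx T.pos1 T.pos2
  have h0 : (2 * p + n) ≠ 0 := by have := T.pos1; intro h; linarith
  rw [T.x_mm, map_smul, neg_smul, T.up_pm, smul_neg, smul_smul] at h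
  have h2 := congrArg (fun v => (2 * p + n)⁻¹ • v) h
  simp only [smul_smul, smul_neg, inv_mul_cancel₀ h0, one_smul] at h2
  rw [h2, neg_smul]
  congr 2
  field_simp

theorem xp_mm (T : Tw S L p α β βm x xm ym) :
    S.mm (p + 1) (p + 1) (S.pp p p x) = -(alN n N L p α β) • x := by
  have h := R_zero T.tx T.pos1 T.pos2
  have h0 : (2 * p + n) ≠ 0 := by have := T.pos1; intro h; linarith
  rw [T.x_mm, T.x_mp, map_zero, zero_add, map_smul, neg_smul, T.up_pp, T.bb, T.lam] at h
  have h1 : (2 * p + n) • S.mm (p + 1) (p + 1) (S.pp p p x)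
      = (-(2 * p + n) * alN n N L p α β) • x := by
    have h3 : (2 * p + n) • S.mm (p + 1) (p + 1) (S.pp p p x)
        = ((2 * p + n) * β - (2 * p + n - 4) * α - (2 * ev n p + 6 * ev N p) - L) • x := by
      rw [smul_add] at h
      rw [← eq_sub_iff_add_eq] at h
      rw [h]
      module
    rw [h3]
    congr 1
    unfold alN
    field_simp
    ring
  have h2 := congrArg (fun v => (2 * p + n)⁻¹ • v) h1
  simp only [smul_smul, inv_mul_cancel₀ h0, one_smul] at h2
  rw [h2]
  congr 1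
  field_simp

/-- the leaf Casimir on the tower -/
theorem LamL_x (T : Tw S L p α β βm x xm ym) :
    S.LamL x = ell n N L p α β • x
      + (-(2 * p + N) • S.pm (p + 1) (p + 1) (S.pp p p x)
        + (2 * p + N - 4) • S.pp (p + 1) (p - 1) (S.pm p p x)) := by
  rw [LamL_expand T.tx T.pos1 T.pos2, T.x_mp, T.x_mm, T.xp_mm, T.bb]
  simp only [map_zero, map_smul, map_neg, neg_smul, T.up_pp, T.up_mp]
  unfold ell
  module

theorem wp_mp (T : Tw S L p α β βm x xm ym) :
    S.mp (p + 2) p (S.pp (p + 1) (p - 1) (S.pm p p x))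
      = -((2 * p + n - 2) / (2 * p + n + 2) * β) • S.pp p p x := by
  have h := R_pp (ty_pm T.tx) (by have := T.pos1; linarith)
    (by have := T.hp; have := S.hN; linarith)
  rw [T.bb] at h
  have e1 : p + 1 + 1 = p + 2 := by ring
  have e2 : p - 1 + 1 = p := by ring
  have e3 : p + 1 - 1 = p := by ring
  rw [e1, e2, e3, map_smul] at h
  have h0 : (2 * p + n + 2) ≠ 0 := by have := T.pos1; intro h; linarith
  have h1 : (2 * (p + 1) + n) = 2 * p + n + 2 := by ring
  rw [h1] at h
  have h2 := congrArg (fun v => (2 * p + n + 2)⁻¹ • v) h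
  simp only [smul_smul, inv_mul_cancel₀ h0, one_smul] at h2
  rw [h2]
  congr 1
  field_simp
  ring

/-- sum of the two lowering parts at the next stage -/
theorem next_sum (T : Tw S L p α β βm x xm ym) :
    S.mm (p + 2) (p + 2) (S.pp (p + 1) (p + 1) (S.pp p p x))
      + S.mp (p + 2) p (S.pm (p + 1) (p + 1) (S.pp p p x))
      = -((L + 2 * ev n (p + 1) + 6 * ev N (p + 1)
          + (2 * p + n - 2) * alN n N L p α β) / (2 * p + 2 + n)) • S.pp p p x := by
  have h := R_zero (ty_pp T.tx) (by have := T.pos1; linarith)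
    (by have := T.pos2; linarith)
  rw [T.xp_mp, T.xp_mm, Lam_pp, T.lam] at h
  have e1 : p + 1 + 1 = p + 2 := by ring
  have e3 : p + 1 - 1 = p := by ring
  rw [e1, e3, map_smul, map_zero, zero_add, map_smul] at h
  have h0 : (2 * p + 2 + n) ≠ 0 := by have := T.pos1; intro h; linarith
  have h1 : (2 * (p + 1) + n) = 2 * p + 2 + n := by ring
  rw [h1] at h
  have h3 : (2 * p + 2 + n - 4) • -alN n N L p α β • S.pp p p x
      - (2 * ev n (p + 1) + 6 * ev N (p + 1)) • S.pp p p x - L • S.pp p p x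
      = (-(L + 2 * ev n (p + 1) + 6 * ev N (p + 1)
          + (2 * p + n - 2) * alN n N L p α β)) • S.pp p p x := by
    module
  rw [h3] at h
  have h2 := congrArg (fun v => (2 * p + 2 + n)⁻¹ • v) h
  simp only [smul_smul, inv_mul_cancel₀ h0, one_smul] at h2
  rw [h2]
  congr 1
  field_simp

/-- the joint eigenvalue property moves up the tower -/
theorem next_bb (T : Tw S L p α β βm x xm ym) :
    S.mp (p + 2) p (S.pm (p + 1) (p + 1) (S.pp p p x))
      = -(beN n N L p α β) • S.pp p p x := by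
  have hp := T.hp
  have hn := S.hn
  have hN := S.hN
  have tx1 : S.Ty (p + 1) (p + 1) (S.pp p p x) := ty_pp T.tx
  have ty1 : S.Ty (p + 1) (p - 1) (S.pm p p x) := ty_pm T.tx
  set x1 := S.pp p p x with hx1
  set y1 := S.pm p p x with hy1
  have e1 : p + 1 + 1 = p + 2 := by ring
  have e3 : p + 1 - 1 = p := by ring
  have e4 : p - 1 + 1 = p := by ring
  have e5 : p + 2 + 1 = p + 3 := by ring
  have e6 : p + 2 - 1 = p + 1 := by ring
  -- the equation
  have hup : up S.X S.D N p x = x1 := by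
    rw [← pp_add_mp (p := p) (by intro h; linarith) x, T.x_mp, add_zero]
  have hL : S.LamL x1 = up S.X S.D N p (S.LamL x) := by rw [← LamL_upD, hup]
  have ty2 : S.Ty (p + 2) p (S.pm (p + 1) (p + 1) x1) := (ty_pm tx1).cast e1 e3
  have tw2 : S.Ty (p + 2) p (S.pp (p + 1) (p - 1) y1) := (ty_pp ty1).cast e1 e4
  set y2 := S.pm (p + 1) (p + 1) x1 with hy2
  set w2 := S.pp (p + 1) (p - 1) y1 with hw2
  rw [T.LamL_x, map_add, map_smul, hup, ← hy2, ← hw2,
    ← pp_add_mp (p := p + 2) (by intro h; linarith)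
      (-(2 * p + N) • y2 + (2 * p + N - 4) • w2)] at hL
  rw [LamL_expand tx1 (by linarith) (by linarith)] at hL
  rw [e1, e3, T.xp_mp, T.xp_mm] at hL
  simp only [map_zero, map_smul, add_zero, smul_zero, zero_add, map_add] at hL
  rw [← hy2, ← hx1, T.wp_mp, ← hx1, T.x_mp, smul_zero, smul_zero, add_zero] at hL
  have hs := T.next_sum
  rw [← hx1, ← hy2] at hs
  have hs' : S.mm (p + 2) (p + 2) (S.pp (p + 1) (p + 1) x1)
      = -((L + 2 * ev n (p + 1) + 6 * ev N (p + 1)
          + (2 * p + n - 2) * alN n N L p α β) / (2 * p + 2 + n)) • x1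
        - S.mp (p + 2) p y2 := eq_sub_of_add_eq hs
  rw [hs'] at hL
  have tx2 : S.Ty (p + 2) (p + 2) (S.pp (p + 1) (p + 1) x1) := (ty_pp tx1).cast e1 e1
  -- typed vectors
  have a1 : S.E (S.pm (p + 2) (p + 2) (S.pp (p + 1) (p + 1) x1))
      = ev n (p + 3) • S.pm (p + 2) (p + 2) (S.pp (p + 1) (p + 1) x1) := by
    have := (ty_pm tx2).1; rwa [e5] at this
  have a2 : S.E (S.pp (p + 2) p y2) = ev n (p + 3) • S.pp (p + 2) p y2 := by
    have := (ty_pp ty2).1; rwa [e5] at this
  have a3 : S.E (S.pp (p + 2) p w2) = ev n (p + 3) • S.pp (p + 2) p w2 := by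
    have := (ty_pp tw2).1; rwa [e5] at this
  have a4 : S.E (S.mp (p + 2) p y2) = ev n (p + 1) • S.mp (p + 2) p y2 := by
    have := (ty_mp ty2).1; rwa [e6] at this
  have b1 : S.E (-(2 * (p + 1) + N) • S.pm (p + 2) (p + 2) (S.pp (p + 1) (p + 1) x1)
      + (2 * (p + 1) + N - 4) • S.pp (p + 2) p y2
      - (-(2 * p + N) • S.pp (p + 2) p y2 + (2 * p + N - 4) • S.pp (p + 2) p w2))
      = ev n (p + 3) • (-(2 * (p + 1) + N) • S.pm (p + 2) (p + 2) (S.pp (p + 1) (p + 1) x1)
      + (2 * (p + 1) + N - 4) • S.pp (p + 2) p y2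
      - (-(2 * p + N) • S.pp (p + 2) p y2 + (2 * p + N - 4) • S.pp (p + 2) p w2)) := by
    simp only [map_add, map_sub, map_smul, a1, a2, a3]
    module
  have key : ∀ c1 c2 : ℝ, c1 • x1 + c2 • S.mp (p + 2) p y2
      + (-(2 * (p + 1) + N) • S.pm (p + 2) (p + 2) (S.pp (p + 1) (p + 1) x1)
      + (2 * (p + 1) + N - 4) • S.pp (p + 2) p y2
      - (-(2 * p + N) • S.pp (p + 2) p y2 + (2 * p + N - 4) • S.pp (p + 2) p w2)) = 0 →
      c1 • x1 + c2 • S.mp (p + 2) p y2 = 0 := by
    intro c1 c2 hc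
    have t1 : S.E (c1 • x1 + c2 • S.mp (p + 2) p y2)
        = ev n (p + 1) • (c1 • x1 + c2 • S.mp (p + 2) p y2) := by
      simp only [map_add, map_smul, a4, tx1.1]; module
    have h0 : S.E (0 : V) = ev n (p - 1) • (0 : V) := by simp
    exact (sepE t1 b1 h0 (ev_ne_of (by linarith) (by linarith))
      (ev_ne_of' (by linarith) (by linarith)) (ev_ne_of' (by linarith) (by linarith))
      (by rw [add_zero]; exact hc)).1
  have hk := key ((2 * (p + 1) + N) * ((L + 2 * ev n (p + 1) + 6 * ev N (p + 1)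
          + (2 * p + n - 2) * alN n N L p α β) / (2 * p + 2 + n))
        - (2 * (p + 1) + N - 4) * alN n N L p α β - 8 * ev N (p + 1) - ell n N L p α β
        + (2 * p + N - 4) * ((2 * p + n - 2) / (2 * p + n + 2) * β))
      ((2 * (p + 1) + N) + (2 * (p + 1) + N - 4) + (2 * p + N)) (by
        rw [← sub_eq_zero] at hL
        rw [← hL]
        module)
  have hc0 : (2 * (p + 1) + N) + (2 * (p + 1) + N - 4) + (2 * p + N) = 3 * (2 * p + N) := by
    ring
  rw [hc0] at hk
  have hc1 : 3 * (2 * p + N) ≠ 0 := by intro h; linarith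
  have hk2 := eq_neg_of_add_eq_zero_right hk
  have h2 := congrArg (fun v => (3 * (2 * p + N))⁻¹ • v) hk2
  simp only [smul_smul, inv_mul_cancel₀ hc1, one_smul] at h2
  rw [h2, smul_neg, smul_smul, ← neg_smul]
  congr 2
  unfold beN
  ring

end Tw

end Lad

end Vale.Agent.P207.H468
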