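import Mathlib
import Vale.Agent.P207.H468.Tower

/-!
Ladder calculus, part 5: induction step of the tower and the Gram numbers of a stage.
-/

namespace Vale.Agent.P207.H468

namespace Lad

variable {V : Type*} [AddCommGroup V] [Module ℝ V] {n N : ℝ} {S : Lad V n N}
variable {p q r s : ℝ} {f g h : V}

namespace Tw

variable {L α β βm : ℝ} {x xm ym : V}

theorem step (T : Tw S L p α β βm x xm ym) :
    Tw S L (p + 1) (alN n N L p α β) (beN n N L p α β) β (S.pp p p x) x (S.pm p p x) := by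
  have e3 : p + 1 - 1 = p := by ring
  have e4 : p + 1 - 2 = p - 1 := by ring
  have e5 : p + 1 + 1 = p + 2 := by ring
  refine ⟨?_, ty_pp T.tx, ?_, ?_, T.xp_mp, T.xp_mm, ?_, ?_, ?_, ?_, ?_, ?_⟩
  · have := T.hp; linarith
  · rw [e3]; exact T.tx
  · rw [e4]; exact ty_pm T.tx
  · rw [e3]
  · rw [e3]
  · rw [e3, T.x_mp, smul_zero]
  · rw [e4, T.bb]; module
  · rw [Lam_pp, T.lam, map_smul]
  · rw [e3, e5]; exact T.next_bb

end Tw

/-- the base of the tower: `h` of type `(2, 2)`, divergence free, joint eigenvector -/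
theorem tw_base {L b : ℝ} {h : V} (ht : S.Ty 2 2 h) (hd : S.E (S.X h) = ev n 3 • S.X h)
    (hL : S.Lam h = L • h) (hb : S.mp 3 1 (S.pm 2 2 h) = -b • h) :
    Tw S L 2 0 b 0 h 0 0 := by
  have hdn : dn S.X S.E n 2 h = 0 := by
    show pr S.E _ _ (S.X h) = 0
    rw [pr_apply, hd]
    have : (2 : ℝ) + 1 = 3 := by norm_num
    rw [this, sub_self, smul_zero]
  refine ⟨le_refl _, ht, Ty.zero, Ty.zero, ?_, ?_, ?_, ?_, ?_, ?_, hL, ?_⟩
  · show pr S.D _ _ (dn S.X S.E n 2 h) = 0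
    rw [hdn, map_zero]
  · show pr S.D _ _ (dn S.X S.E n 2 h) = _
    rw [hdn, map_zero, smul_zero]
  · simp
  · simp
  · simp
  · simp
  · have e1 : (2 : ℝ) + 1 = 3 := by norm_num
    have e2 : (2 : ℝ) - 1 = 1 := by norm_num
    rw [e1, e2]; exact hb

namespace Tw

variable {L α β βm : ℝ} {x xm ym : V} {α' β' βm' : ℝ} {x' xm' ym' : V}

theorem inner_pp (T : Tw S L p α β βm x xm ym) (T' : Tw S L p α' β' βm' x' xm' ym') :
    S.ip (S.pp p p x) (S.pp p p x') = alN n N L p α' β' * S.ip x x' := by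
  have h1 := T.pos1
  have h2 := T.pos2
  rw [adj_pp T.tx (ty_pp T'.tx) (by linarith) (by linarith), T'.xp_mm, ip_smul_right]
  ring

theorem inner_pm (T : Tw S L p α β βm x xm ym) (T' : Tw S L p α' β' βm' x' xm' ym') :
    S.ip (S.pm p p x) (S.pm p p x') = β' * S.ip x x' := by
  have h1 := T.pos1
  have h2 := T.pos2
  rw [adj_pm T.tx (ty_pm T'.tx) (by linarith) (by linarith), T'.bb, ip_smul_right]
  ring

theorem inner_xm (T : Tw S L p α β βm x xm ym) (T' : Tw S L p α' β' βm' x' xm' ym') :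
    α * α' * S.ip xm xm' = α * S.ip x x' := by
  have hp := T.hp
  have hn := S.hn
  have hN := S.hN
  have e3 : p - 1 + 1 = p := by ring
  have h := adj_pp T.txm (T'.tx.cast e3.symm e3.symm) (by linarith) (by linarith)
  rw [e3, T'.x_mm, ip_smul_right] at h
  have h2 : S.ip (α • S.pp (p - 1) (p - 1) xm) x' = S.ip (α • x) x' := by rw [T.up_pp]
  rw [ip_smul_left, ip_smul_left, h] at h2
  linarith

theorem inner_ym (T : Tw S L p α β βm x xm ym) (T' : Tw S L p α' β' βm' x' xm' ym') :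
    α * α' * S.ip ym ym' = α * βm' * S.ip x x' := by
  have hp := T.hp
  have hn := S.hn
  have hN := S.hN
  have e3 : p - 1 + 1 = p := by ring
  have e4 : p - 1 - 1 = p - 2 := by ring
  have h := adj_pm T.txm (T'.tym.cast e3.symm e4.symm) (by linarith) (by linarith)
  rw [e3, e4] at h
  have h2 : S.ip (α • S.pm (p - 1) (p - 1) xm) ym' = S.ip (α • ym) ym' := by rw [T.up_pm]
  rw [ip_smul_left, ip_smul_left, h] at h2
  have h3 : S.ip xm (α' • S.mp p (p - 2) ym') = S.ip xm (-(α' * βm') • xm') := by rw [T'.ym_mp]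
  rw [ip_smul_right, ip_smul_right] at h3
  have h4 := T.inner_xm T'
  have h5 : α * α' * S.ip ym ym' = α' * (α * S.ip ym ym') := by ring
  rw [h5, ← h2]
  have h6 : α' * (α * -S.ip xm ((S.mp p (p - 2)) ym'))
      = -(α * (α' * S.ip xm ((S.mp p (p - 2)) ym'))) := by ring
  rw [h6, h3]
  have h7 : -(α * (-(α' * βm') * S.ip xm xm')) = βm' * (α * α' * S.ip xm xm') := by ring
  rw [h7, h4]
  ring

/-- `⟪y⁺⁺, w⁺⟫` -/
theorem inner_yw (T : Tw S L p α β βm x xm ym) (T' : Tw S L p α' β' βm' x' xm' ym') :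
    S.ip (S.pm (p + 1) (p + 1) (S.pp p p x)) (S.pp (p + 1) (p - 1) (S.pm p p x'))
      = (2 * p + n - 2) / (2 * p + n + 2) * β' * (alN n N L p α' β' * S.ip x x') := by
  have hp := T.hp
  have hn := S.hn
  have hN := S.hN
  have e1 : p + 1 + 1 = p + 2 := by ring
  have e3 : p + 1 - 1 = p := by ring
  have e4 : p - 1 + 1 = p := by ring
  have tw : S.Ty (p + 2) p (S.pp (p + 1) (p - 1) (S.pm p p x')) :=
    (ty_pp (ty_pm T'.tx)).cast e1 e4
  have h := adj_pm (ty_pp T.tx) (tw.cast e1.symm e3.symm) (by linarith) (by linarith)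
  rw [e1, e3, T'.wp_mp, ip_smul_right, T.inner_pp T'] at h
  rw [h]
  ring

/-- relation `R_zero` for `y⁺` -/
theorem inner_R (T : Tw S L p α β βm x xm ym) (T' : Tw S L p α' β' βm' x' xm' ym') :
    (2 * p + 2 + n) *
      (S.ip (S.pp (p + 1) (p - 1) (S.pm p p x)) (S.pp (p + 1) (p - 1) (S.pm p p x'))
        + S.ip (S.pm (p + 1) (p - 1) (S.pm p p x)) (S.pm (p + 1) (p - 1) (S.pm p p x')))
      = (L + 2 * ev n (p + 1) + 6 * ev N (p - 1)) * (β' * S.ip x x')
        + (2 * p + n - 2) * (β * β' * S.ip x x'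
          + ((2 * p + n - 4) / (2 * p + n)) ^ 2 * (α * βm' * S.ip x x')) := by
  have hp := T.hp
  have hn := S.hn
  have hN := S.hN
  have e1 : p + 1 + 1 = p + 2 := by ring
  have e3 : p + 1 - 1 = p := by ring
  have e4 : p - 1 + 1 = p := by ring
  have e5 : p - 1 - 1 = p - 2 := by ring
  have ty := ty_pm T.tx
  have ty' := ty_pm T'.tx
  have h := R_zero ty (by linarith) (by linarith)
  rw [Lam_pm, T.lam, T.bb, T.yp_mm, map_smul] at h
  simp only [neg_smul, map_smul, map_neg] at h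
  have h2 := congrArg (fun v => S.ip v (S.pm p p x')) h
  simp only [ip_smul_left, ip_add_left, ip_sub_left, ip_neg_left] at h2
  rw [e1, e3, e4, e5] at h2
  have w1 := adj_pp ty' (ty_pp ty) (by linarith) (by linarith)
  have w2 := adj_pm ty' (ty_pm ty) (by linarith) (by linarith)
  rw [e1, e4] at w1
  rw [e1, e5] at w2
  rw [ip_comm] at w1 w2
  rw [ip_comm (S.mm (p + 2) p _)] at w1
  rw [ip_comm (S.mp (p + 2) (p - 2) _)] at w2
  have w5 := adj_pp (f := ym) (g := S.pm p p x') T.tym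
    (by rw [show p - 2 + 1 = p - 1 by ring]; exact ty') (by linarith) (by linarith)
  rw [show p - 2 + 1 = p - 1 by ring, T'.yp_mm, ip_smul_right] at w5
  have w6 := T.inner_ym T'
  have w7 := T.inner_pm T'
  rw [w5, w7] at h2
  have g1 : S.ip (S.mm (p + 2) p (S.pp (p + 1) (p - 1) (S.pm p p x))) (S.pm p p x')
      = - S.ip (S.pp (p + 1) (p - 1) (S.pm p p x)) (S.pp (p + 1) (p - 1) (S.pm p p x')) := by
    linarith
  have g2 : S.ip (S.mp (p + 2) (p - 2) (S.pm (p + 1) (p - 1) (S.pm p p x))) (S.pm p p x')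
      = - S.ip (S.pm (p + 1) (p - 1) (S.pm p p x)) (S.pm (p + 1) (p - 1) (S.pm p p x')) := by
    linarith
  rw [g1, g2] at h2
  have w8 : ((2 * p + n - 4) / (2 * p + n)) ^ 2 * (α * βm' * S.ip x x')
      = ((2 * p + n - 4) / (2 * p + n)) ^ 2 * (α * α' * S.ip ym ym') := by rw [w6]
  rw [w8]
  linear_combination -h2

end Tw

end Lad

end Vale.Agent.P207.H468
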