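import Mathlib
import Vale.Agent.P207.H468.Norms

/-!
Ladder calculus, part 6: the leaf Casimir relation for `y⁺`, and all Gram numbers of a stage.
-/

namespace Vale.Agent.P207.H468

namespace Lad

variable {V : Type*} [AddCommGroup V] [Module ℝ V] {n N : ℝ} {S : Lad V n N}
variable {p q r s : ℝ} {f g h : V}

namespace Tw

variable {L α β βm : ℝ} {x xm ym : V} {α' β' βm' : ℝ} {x' xm' ym' : V}

/-- the three parts of the leaf Casimir on `y⁺` -/
theorem LamL_y (T : Tw S L p α β βm x xm ym) :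
    ∃ u v : V, S.E u = ev n (p + 3) • u ∧ v =
      (-(2 * p - 2 + N) * (α * β)) • xm
        - ((2 * p + N - 6) * ((2 * p + n - 4) / (2 * p + n))) • (α • S.mp p (p - 2) ym) ∧
      S.LamL (S.pm p p x) = u
      + (-(2 * p - 2 + N) • (S.mm (p + 2) p (S.pp (p + 1) (p - 1) (S.pm p p x))
            - β • S.pm p p x)
          + (2 * p + N - 6) • (S.mp (p + 2) (p - 2) (S.pm (p + 1) (p - 1) (S.pm p p x))
            - ((2 * p + n - 4) / (2 * p + n) * α) • S.pp p (p - 2) ym)
          - (8 * ev N (p - 1)) • S.pm p p x) + v := by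
  have hp := T.hp
  have hn := S.hn
  have hN := S.hN
  have e1 : p + 1 + 1 = p + 2 := by ring
  have e3 : p + 1 - 1 = p := by ring
  have e4 : p - 1 + 1 = p := by ring
  have e5 : p - 1 - 1 = p - 2 := by ring
  have e6 : p + 2 + 1 = p + 3 := by ring
  have ty := ty_pm T.tx
  have h := LamL_expand ty (by linarith) (by linarith)
  rw [e1, e3, e4, e5, T.bb, T.yp_mm] at h
  have tw : S.Ty (p + 2) p (S.pp (p + 1) (p - 1) (S.pm p p x)) := (ty_pp ty).cast e1 e4
  have tv : S.Ty (p + 2) (p - 2) (S.pm (p + 1) (p - 1) (S.pm p p x)) := (ty_pm ty).cast e1 e5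
  refine ⟨-(2 * (p - 1) + N) • S.pm (p + 2) p (S.pp (p + 1) (p - 1) (S.pm p p x))
      + (2 * (p - 1) + N - 4) • S.pp (p + 2) (p - 2) (S.pm (p + 1) (p - 1) (S.pm p p x)),
    _, ?_, rfl, ?_⟩
  · have k1 := (ty_pm tw).1
    have k2 := (ty_pp tv).1
    rw [e6] at k1 k2
    simp only [map_add, map_smul, k1, k2]
    module
  · rw [h]
    simp only [map_smul, T.x_mm]
    module

theorem inner_L (T : Tw S L p α β βm x xm ym) (T' : Tw S L p α' β' βm' x' xm' ym') :
    (4 * p + 2 * N - 6) *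
      S.ip (S.pp (p + 1) (p - 1) (S.pm p p x)) (S.pp (p + 1) (p - 1) (S.pm p p x'))
    - (2 * p + N - 6) *
      S.ip (S.pm (p + 1) (p - 1) (S.pm p p x)) (S.pm (p + 1) (p - 1) (S.pm p p x'))
    = (ell n N L p α β * β'
        + (2 * p + N) * ((2 * p + n - 2) / (2 * p + n + 2) * β' * alN n N L p α' β')
        - (2 * p - 2 + N) * (β * β')
        + (2 * p + N - 6) * ((2 * p + n - 4) / (2 * p + n)) ^ 2 * (α * βm')
        + 8 * ev N (p - 1) * β'
        + α * (-(2 * p + N - 2) * β' + (2 * p + N - 6) * ((2 * p + n - 4) / (2 * p + n)) * βm'))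
      * S.ip x x' := by
  have hp := T.hp
  have hn := S.hn
  have hN := S.hN
  have e1 : p + 1 + 1 = p + 2 := by ring
  have e3 : p + 1 - 1 = p := by ring
  have e4 : p - 1 + 1 = p := by ring
  have e5 : p - 1 - 1 = p - 2 := by ring
  have e6 : p + 2 + 1 = p + 3 := by ring
  have e7 : p + 2 - 1 = p + 1 := by ring
  have ty := ty_pm T.tx
  have ty' := ty_pm T'.tx
  have tw : S.Ty (p + 2) p (S.pp (p + 1) (p - 1) (S.pm p p x)) := (ty_pp ty).cast e1 e4
  have tv : S.Ty (p + 2) (p - 2) (S.pm (p + 1) (p - 1) (S.pm p p x)) := (ty_pm ty).cast e1 e5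
  have ty2 : S.Ty (p + 2) p (S.pm (p + 1) (p + 1) (S.pp p p x)) :=
    (ty_pm (ty_pp T.tx)).cast e1 e3
  -- the vector equation
  have hdn : dn S.X S.D N p x = S.pm p p x - α • xm := by
    rw [← pm_add_mm (p := p) (by intro h; linarith) x, T.x_mm, neg_smul, ← sub_eq_add_neg]
  have hL : S.LamL (dn S.X S.D N p x) = dn S.X S.D N p (S.LamL x) := LamL_dnD x
  rw [hdn, LamL_sub, LamL_smul, T.LamL_x, map_add, map_smul, hdn,
    ← pm_add_mm (p := p + 2) (by intro h; linarith)] at hL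
  set G := -(2 * p + N) • S.pm (p + 1) (p + 1) (S.pp p p x)
        + (2 * p + N - 4) • S.pp (p + 1) (p - 1) (S.pm p p x) with hG
  have tG : S.Ty (p + 2) p G := (ty2.smul _).add (tw.smul _)
  have h2 := congrArg (fun v => S.ip v (S.pm p p x')) hL
  simp only [ip_smul_left, ip_add_left, ip_sub_left] at h2
  -- pieces
  have ne1 : ev n (p + 3) ≠ ev n (p + 1) := ev_ne_of' (by linarith) (by linarith)
  have ne2 : ev n (p - 1) ≠ ev n (p + 1) := ev_ne_of (by linarith) (by linarith)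
  have ne3 : ev n (p - 1) ≠ ev n (p + 3) := ev_ne_of (by linarith) (by linarith)
  have p1 : S.ip (S.pm (p + 2) p G) (S.pm p p x') = 0 := by
    have k := (ty_pm tG).1
    rw [e6] at k
    exact orthE ne1 k ty'.1
  have p2 : S.ip (S.mm (p + 2) p G) (S.pm p p x')
      = -S.ip G (S.pp (p + 1) (p - 1) (S.pm p p x')) := by
    have k := adj_pp ty' (tG.cast e1.symm e4.symm) (by linarith) (by linarith)
    rw [e1, e4, ip_comm] at k
    rw [ip_comm (S.mm (p + 2) p _)] at k
    linarith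
  have p3 : S.ip G (S.pp (p + 1) (p - 1) (S.pm p p x'))
      = -(2 * p + N) * ((2 * p + n - 2) / (2 * p + n + 2) * β' * (alN n N L p α' β' * S.ip x x'))
        + (2 * p + N - 4) *
          S.ip (S.pp (p + 1) (p - 1) (S.pm p p x)) (S.pp (p + 1) (p - 1) (S.pm p p x')) := by
    rw [hG, ip_add_left, ip_smul_left, ip_smul_left, T.inner_yw T']
  have p4 : S.ip xm (S.pm p p x') = 0 := orthE ne2 T.txm.1 ty'.1
  -- `y` side
  have g1 : S.ip (S.mm (p + 2) p (S.pp (p + 1) (p - 1) (S.pm p p x))) (S.pm p p x')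
      = - S.ip (S.pp (p + 1) (p - 1) (S.pm p p x)) (S.pp (p + 1) (p - 1) (S.pm p p x')) := by
    have k := adj_pp ty' (ty_pp ty) (by linarith) (by linarith)
    rw [e1, e4, ip_comm] at k
    rw [ip_comm (S.mm (p + 2) p _)] at k
    linarith
  have g2 : S.ip (S.mp (p + 2) (p - 2) (S.pm (p + 1) (p - 1) (S.pm p p x))) (S.pm p p x')
      = - S.ip (S.pm (p + 1) (p - 1) (S.pm p p x)) (S.pm (p + 1) (p - 1) (S.pm p p x')) := by
    have k := adj_pm ty' (ty_pm ty) (by linarith) (by linarith)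
    rw [e1, e5, ip_comm] at k
    rw [ip_comm (S.mp (p + 2) (p - 2) _)] at k
    linarith
  have g3 : S.ip (S.pp p (p - 2) ym) (S.pm p p x')
      = (2 * p + n - 4) / (2 * p + n) * α' * S.ip ym ym' := by
    have k := adj_pp (f := ym) (g := S.pm p p x') T.tym
      (by rw [show p - 2 + 1 = p - 1 by ring]; exact ty') (by linarith) (by linarith)
    rw [show p - 2 + 1 = p - 1 by ring, T'.yp_mm, ip_smul_right] at k
    rw [k]; ring
  have g4 := T.inner_ym T'
  have g5 := T.inner_pm T'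
  obtain ⟨u, v, hu, hv, hy⟩ := T.LamL_y
  have tm : S.E (S.mp p (p - 2) ym) = ev n (p - 1) • S.mp p (p - 2) ym := (ty_mp T.tym).1
  have hvE : S.E v = ev n (p - 1) • v := by
    rw [hv]
    simp only [map_sub, map_smul, tm, T.txm.1]
    module
  have p5 : S.ip (S.LamL (S.pm p p x)) (S.pm p p x')
      = (2 * p - 2 + N) *
          (S.ip (S.pp (p + 1) (p - 1) (S.pm p p x)) (S.pp (p + 1) (p - 1) (S.pm p p x'))
            + β * (β' * S.ip x x'))
        - (2 * p + N - 6) *
          (S.ip (S.pm (p + 1) (p - 1) (S.pm p p x)) (S.pm (p + 1) (p - 1) (S.pm p p x'))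
            + ((2 * p + n - 4) / (2 * p + n)) ^ 2 * (α * βm' * S.ip x x'))
        - 8 * ev N (p - 1) * (β' * S.ip x x') := by
    rw [hy, ip_add_left, ip_add_left, orthE ne1 hu ty'.1, orthE ne2 hvE ty'.1]
    simp only [ip_smul_left, ip_add_left, ip_sub_left, g1, g2, g3,
      g5]
    rw [← g4]
    ring
  -- `xm` side
  obtain ⟨u', v', hu', hv', hy'⟩ := T'.LamL_y
  have tw' : S.Ty (p + 2) p (S.pp (p + 1) (p - 1) (S.pm p p x')) := (ty_pp ty').cast e1 e4
  have tv' : S.Ty (p + 2) (p - 2) (S.pm (p + 1) (p - 1) (S.pm p p x')) := (ty_pm ty').cast e1 e5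
  have q1 : S.ip xm (S.mm (p + 2) p (S.pp (p + 1) (p - 1) (S.pm p p x'))) = 0 := by
    have k := (ty_mm tw').1
    rw [e7] at k
    exact orthE ne2 T.txm.1 k
  have q2 : S.ip xm (S.mp (p + 2) (p - 2) (S.pm (p + 1) (p - 1) (S.pm p p x'))) = 0 := by
    have k := (ty_mp tv').1
    rw [e7] at k
    exact orthE ne2 T.txm.1 k
  have q3 : S.ip xm (S.pp p (p - 2) ym') = 0 := orthE ne2 T.txm.1 (ty_pp T'.tym).1
  have q4 : S.ip xm u' = 0 := orthE ne3 T.txm.1 hu'
  have p6 : α * S.ip (S.LamL xm) (S.pm p p x')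
      = (-(2 * p - 2 + N) * β'
          + (2 * p + N - 6) * ((2 * p + n - 4) / (2 * p + n)) * βm') * (α * S.ip x x') := by
    rw [LamL_symm, hy', hv', T'.ym_mp]
    simp only [ip_smul_right, ip_add_right, ip_sub_right, q1, q2, q3, q4, p4]
    have k := T.inner_xm T'
    rw [← k]
    ring
  rw [p1, p2, p3, p4, p5, p6, g5] at h2
  linear_combination h2

end Tw

end Lad

end Vale.Agent.P207.H468
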