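import Mathlib
import Vale.Agent.P207.H468.Norms2
import Vale.Agent.P207.Low.Abs

/-!
Ladder calculus, part 7: bridge from the ladder algebra of H662.
-/

namespace Vale.Agent.P207.H468

open Vale.Agent.P207

variable {W : Type*} [AddCommGroup W] [Module ℝ W]

theorem lam_eq (L : H662.Lad W) (f : W) :
    quad L.X L.D f - (2 : ℝ) • L.D f - (6 : ℝ) • L.L2.Δ f = L.Lam f := by
  rw [H662.Lad.Lam_apply, H662.Lad.C1_eq, H662.Lad.C2_eq]
  unfold quad
  simp only [H662.Lad.D_apply, map_add]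
  module

theorem lamL_eq (L : H662.Lad W) (f : W) :
    quad L.X L.L2.Δ f - (8 : ℝ) • L.L2.Δ f = L.LamL f := by
  rw [H662.Lad.LamL_apply, H662.Lad.C2_eq]
  unfold quad
  module

/-- the ladder structure of H662 in the form used here -/
noncomputable def ofLad (L : H662.Lad W) (hd : 2 ≤ L.d) (he : 0 ≤ L.e) :
    Lad W (Low.dim L) (L.d + 1) where
  ip := L.ip
  symm := L.symm
  X := L.X
  E := L.D
  D := L.L2.Δ
  skew := L.skew
  symE f g := by
    rw [H662.Lad.D_apply, H662.Lad.D_apply, map_add, LinearMap.add_apply, map_add,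
      L.L1.Δ_symm, L.L2.Δ_symm]
  symD := L.L2.Δ_symm
  comm f := by
    rw [H662.Lad.D_apply, H662.Lad.D_apply, map_add, L.comm]
  relE f := by
    have h := L.deg f
    have e1 : (Low.dim L - 1) * (Low.dim L - 3) = (L.e + L.d) * (L.e + L.d - 2) := by
      unfold Low.dim; ring
    rw [e1]
    show L.X (L.D (L.D f)) - (2 : ℝ) • L.D (L.X (L.D f)) + L.D (L.D (L.X f))
      = (2 : ℝ) • (L.D (L.X f) + L.X (L.D f)) + ((L.e + L.d) * (L.e + L.d - 2)) • L.X f
    have h2 : L.D (L.D (L.X f)) - (2 : ℝ) • L.D (L.X (L.D f)) + L.X (L.D (L.D f))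
      = (2 : ℝ) • (L.D (L.X f) + L.X (L.D f)) + ((L.e + L.d) * (L.e + L.d - 2)) • L.X f := h
    rw [← h2]; abel
  relD f := by
    have h := L.deg2 f
    have e1 : (L.d + 1 - 1) * (L.d + 1 - 3) = L.d * (L.d - 2) := by ring
    rw [e1, ← h]; abel
  hn := by unfold Low.dim; linarith
  hN := by linarith
  lamX f := by rw [lam_eq, lam_eq, H662.Lad.X_Lam]
  lamE f := by rw [lam_eq, lam_eq, H662.Lad.D_Lam]
  lamD f := by rw [lam_eq, lam_eq, H662.Lad.D2_Lam]
  lelX f := by rw [lamL_eq, lamL_eq, H662.Lad.X_LamL]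
  lelD f := by rw [lamL_eq, lamL_eq, H662.Lad.D2_LamL]

theorem ofLad_Lam (L : H662.Lad W) (hd : 2 ≤ L.d) (he : 0 ≤ L.e) (f : W) :
    (ofLad L hd he).Lam f = L.Lam f := lam_eq L f

theorem ofLad_LamL (L : H662.Lad W) (hd : 2 ≤ L.d) (he : 0 ≤ L.e) (f : W) :
    (ofLad L hd he).LamL f = L.LamL f := lamL_eq L f

theorem ofLad_Ty {L : H662.Lad W} (hd : 2 ≤ L.d) (he : 0 ≤ L.e) {p q : ℝ} {u : W} :
    (ofLad L hd he).Ty p q u ↔ Low.Typ L p q u := by
  have e1 : ev (L.d + 1) q = q * (q + L.d - 1) := by unfold ev; ring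
  have e2 : ev (Low.dim L) p = p * (p + Low.dim L - 2) := rfl
  constructor
  · rintro ⟨h1, h2⟩
    refine ⟨?_, ?_⟩
    · rw [← e1]; exact h2
    · rw [← e2]; exact h1
  · rintro ⟨h1, h2⟩
    refine ⟨?_, ?_⟩
    · rw [e2]; exact h2
    · rw [e1]; exact h1

end Vale.Agent.P207.H468
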