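import Mathlib
import Vale.Agent.P207.H468.Norms2

/-!
Ladder calculus, part 8: the relations for all leaf degrees (including `0`), and the commutation
relations of the leaf Casimir with `X` by components.
-/

namespace Vale.Agent.P207.H468

section One

variable {V : Type*} [AddCommGroup V] [Module ℝ V] {X T : V →ₗ[ℝ] V} {m p : ℝ} {f : V}

theorem quad_eq0 (hR : Rel X T m) (hf : T f = ev m p • f) (h1 : 2 * p + m - 2 ≠ 0)
    (h2 : 2 * p + m ≠ 0) (hd : dn X T m p f = 0) :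
    quad X T f = -(2 * p + m) • dn X T m (p + 1) (up X T m p f) := by
  set u := up X T m p f with hu
  have hX : X f = u := by
    have := up_add_dn (X := X) (T := T) (f := f) h1
    rw [hd, add_zero] at this
    exact this.symm
  have hTu : T u = ev m (p + 1) • u := T_up hR hf
  have hXu : X u = up X T m (p + 1) u + dn X T m (p + 1) u :=
    (up_add_dn (by intro h; apply h2; linarith)).symm
  have k1 : T (up X T m (p + 1) u) = ev m (p + 1 + 1) • up X T m (p + 1) u := T_up hR hTu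
  have k2 : T (dn X T m (p + 1) u) = ev m (p + 1 - 1) • dn X T m (p + 1) u := T_dn hR hTu
  unfold quad
  simp only [hf, map_smul, hX, map_add, hTu, hXu, k1, k2]
  generalize up X T m (p + 1) u = a1
  generalize dn X T m (p + 1) u = a2
  have e1 : ev m (p + 1 + 1) = 2 * ev m (p + 1) - ev m p + 2 := by unfold ev; ring
  have e2 : ev m (p + 1 - 1) = ev m p := by rw [add_sub_cancel_right]
  have e5 : ev m (p + 1) = ev m p + (2 * p + m - 1) := by linarith [ev_up_sub m p]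
  rw [e1, e2, e5]
  module

theorem sep4 {a b c d : ℝ} {u v w z : V} (hu : T u = a • u) (hv : T v = b • v)
    (hw : T w = c • w) (hz : T z = d • z) (hab : a ≠ b) (hac : a ≠ c) (had : a ≠ d)
    (hbc : b ≠ c) (hbd : b ≠ d) (hcd : c ≠ d) (h : u + v + w + z = 0) :
    u = 0 ∧ v = 0 ∧ w = 0 ∧ z = 0 := by
  have h1 := congrArg T h
  simp only [map_add, hu, hv, hw, hz, map_zero] at h1
  have h2 := congrArg T h1
  simp only [map_add, map_smul, hu, hv, hw, hz, map_zero, smul_smul] at h2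
  have h3 := congrArg T h2
  simp only [map_add, map_smul, hu, hv, hw, hz, map_zero, smul_smul] at h3
  have k1 : ((a - b) * (a - c) * (a - d)) • u = 0 := by
    have e : ((a - b) * (a - c) * (a - d)) • u
        = ((a * a * a) • u + (b * b * b) • v + (c * c * c) • w + (d * d * d) • z)
        - (b + c + d) • ((a * a) • u + (b * b) • v + (c * c) • w + (d * d) • z)
        + (b * c + b * d + c * d) • (a • u + b • v + c • w + d • z)
        - (b * c * d) • (u + v + w + z) := by module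
    rw [e, h3, h2, h1, h]; simp
  have hu0 : u = 0 := by
    rcases smul_eq_zero.1 k1 with h4 | h4
    · exact absurd h4 (mul_ne_zero (mul_ne_zero (sub_ne_zero.2 hab) (sub_ne_zero.2 hac))
        (sub_ne_zero.2 had))
    · exact h4
  rw [hu0, zero_add] at h
  exact ⟨hu0, Lad.sep3 hv hw hz hbc hbd hcd h⟩

end One

namespace Lad

variable {V : Type*} [AddCommGroup V] [Module ℝ V] {n N : ℝ} {S : Lad V n N}
variable {p q r s : ℝ} {f g h : V}

/-- leaf degree is positive, or zero and there is nothing below -/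
def Qc (S : Lad V n N) (p q : ℝ) (f : V) : Prop :=
  0 < 2 * q + N - 4 ∨ (q = 0 ∧ S.pm p q f = 0 ∧ S.mm p q f = 0)

theorem Qc.hq (h : S.Qc p q f) : 0 < 2 * q + N - 2 := by
  have := S.hN
  rcases h with h | ⟨h, _⟩
  · linarith
  · rw [h]; linarith

theorem Lam_expand' (hf : S.Ty p q f) (hp : 0 < 2 * p + n - 4) (hq : S.Qc p q f) :
    S.Lam f = (-(2 * p + n) • S.mp (p + 1) (q + 1) (S.pp p q f)
        + (2 * p + n - 4) • S.pp (p - 1) (q + 1) (S.mp p q f))
      + (-(2 * p + n) • (S.mm (p + 1) (q + 1) (S.pp p q f) + S.mp (p + 1) (q - 1) (S.pm p q f))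
        + (2 * p + n - 4) • (S.pm (p - 1) (q + 1) (S.mp p q f)
            + S.pp (p - 1) (q - 1) (S.mm p q f))
        - (2 * ev n p + 6 * ev N q) • f)
      + (-(2 * p + n) • S.mm (p + 1) (q - 1) (S.pm p q f)
        + (2 * p + n - 4) • S.pm (p - 1) (q - 1) (S.mm p q f)) := by
  have hQ := hq.hq
  rcases hq with hq | ⟨hq, h1, h2⟩
  · exact Lam_expand hf hp hq
  have hq1 : 2 * q + N - 2 ≠ 0 := hQ.ne'
  have hq2 : 2 * (q + 1) + N - 2 ≠ 0 := by intro h; linarith
  have hp1 : 2 * p + n - 2 ≠ 0 := by intro h; linarith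
  have hp2 : 2 * p + n ≠ 0 := by intro h; linarith
  unfold Lam
  rw [quad_eq S.relE hf.1 hp1 hp2 hp.ne', ← pp_add_pm hq1 f, ← mp_add_mm hq1 f,
    hf.1, hf.2, h1, h2, add_zero, add_zero]
  rw [← mp_add_mm hq2 (S.pp p q f), ← pp_add_pm hq2 (S.mp p q f)]
  simp only [map_zero]
  module

theorem R_all' (hf : S.Ty p q f) (hp : 0 < 2 * p + n - 4) (hq : S.Qc p q f) :
    (-(2 * p + n) • S.mp (p + 1) (q + 1) (S.pp p q f)
        + (2 * p + n - 4) • S.pp (p - 1) (q + 1) (S.mp p q f) = 0) ∧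
    (-(2 * p + n) • (S.mm (p + 1) (q + 1) (S.pp p q f) + S.mp (p + 1) (q - 1) (S.pm p q f))
        + (2 * p + n - 4) • (S.pm (p - 1) (q + 1) (S.mp p q f)
            + S.pp (p - 1) (q - 1) (S.mm p q f))
        - (2 * ev n p + 6 * ev N q) • f - S.Lam f = 0) ∧
    (-(2 * p + n) • S.mm (p + 1) (q - 1) (S.pm p q f)
        + (2 * p + n - 4) • S.pm (p - 1) (q - 1) (S.mm p q f) = 0) := by
  have hN := S.hN
  have hq' := hq
  rcases hq with hq | ⟨hq, h1, h2⟩
  · exact R_all hf hp hq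
  have h := Lam_expand' hf hp hq'
  have e1 : (p : ℝ) + 1 - 1 = p := by ring
  have e2 : (p : ℝ) - 1 + 1 = p := by ring
  have t1 : S.Ty p (q + 1 + 1) (-(2 * p + n) • S.mp (p + 1) (q + 1) (S.pp p q f)
        + (2 * p + n - 4) • S.pp (p - 1) (q + 1) (S.mp p q f)) :=
    (((ty_mp (ty_pp hf)).cast e1 rfl).smul _).add (((ty_pp (ty_mp hf)).cast e2 rfl).smul _)
  have e3 : (q : ℝ) + 1 - 1 = q := by ring
  have e4 : (q : ℝ) - 1 + 1 = q := by ring
  have t2 : S.Ty p q (-(2 * p + n) • (S.mm (p + 1) (q + 1) (S.pp p q f)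
        + S.mp (p + 1) (q - 1) (S.pm p q f))
        + (2 * p + n - 4) • (S.pm (p - 1) (q + 1) (S.mp p q f)
            + S.pp (p - 1) (q - 1) (S.mm p q f))
        - (2 * ev n p + 6 * ev N q) • f - S.Lam f) := by
    refine Ty.sub (Ty.sub (Ty.add (Ty.smul _ (Ty.add ?_ ?_)) (Ty.smul _ (Ty.add ?_ ?_)))
      (hf.smul _)) (ty_Lam hf)
    · exact (ty_mm (ty_pp hf)).cast e1 e3
    · exact (ty_mp (ty_pm hf)).cast e1 e4
    · exact (ty_pm (ty_mp hf)).cast e2 e3
    · exact (ty_pp (ty_mm hf)).cast e2 e4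
  have t3 : (-(2 * p + n) • S.mm (p + 1) (q - 1) (S.pm p q f)
        + (2 * p + n - 4) • S.pm (p - 1) (q - 1) (S.mm p q f)) = 0 := by
    rw [h1, h2]; simp
  have h0 : S.D (0 : V) = ev N (q + 4) • (0 : V) := by simp
  have hs := sepD t1.2 t2.2 h0 (ev_ne_of' (by linarith) (by linarith))
    (ev_ne_of (by linarith) (by linarith)) (ev_ne_of (by linarith) (by linarith)) (by
      rw [add_zero]
      rw [t3, add_zero] at h
      rw [← sub_eq_zero.2 h.symm]
      abel)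
  exact ⟨hs.1, hs.2.1, t3⟩

theorem R_pp' (hf : S.Ty p q f) (hp : 0 < 2 * p + n - 4) (hq : S.Qc p q f) :
    (2 * p + n) • S.mp (p + 1) (q + 1) (S.pp p q f)
      = (2 * p + n - 4) • S.pp (p - 1) (q + 1) (S.mp p q f) := by
  have h := (R_all' hf hp hq).1
  rw [neg_smul, neg_add_eq_zero] at h
  exact h

theorem R_mm' (hf : S.Ty p q f) (hp : 0 < 2 * p + n - 4) (hq : S.Qc p q f) :
    (2 * p + n) • S.mm (p + 1) (q - 1) (S.pm p q f)
      = (2 * p + n - 4) • S.pm (p - 1) (q - 1) (S.mm p q f) := by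
  have h := (R_all' hf hp hq).2.2
  rw [neg_smul, neg_add_eq_zero] at h
  exact h

theorem R_zero' (hf : S.Ty p q f) (hp : 0 < 2 * p + n - 4) (hq : S.Qc p q f) :
    (2 * p + n) • (S.mm (p + 1) (q + 1) (S.pp p q f) + S.mp (p + 1) (q - 1) (S.pm p q f))
      = (2 * p + n - 4) • (S.pm (p - 1) (q + 1) (S.mp p q f)
            + S.pp (p - 1) (q - 1) (S.mm p q f))
        - (2 * ev n p + 6 * ev N q) • f - S.Lam f := by
  have h := (R_all' hf hp hq).2.1
  rw [← sub_eq_zero, ← neg_eq_zero, ← h]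
  module

/-- degree `+2` part of the leaf Casimir -/
noncomputable def l2 (S : Lad V n N) (p q : ℝ) (f : V) : V :=
  -(2 * q + N) • S.pm (p + 1) (q + 1) (S.pp p q f)
    + (2 * q + N - 4) • S.pp (p + 1) (q - 1) (S.pm p q f)

/-- degree `0` part of the leaf Casimir -/
noncomputable def l0 (S : Lad V n N) (p q : ℝ) (f : V) : V :=
  -(2 * q + N) • (S.mm (p + 1) (q + 1) (S.pp p q f) + S.pm (p - 1) (q + 1) (S.mp p q f))
    + (2 * q + N - 4) • (S.mp (p + 1) (q - 1) (S.pm p q f)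
      + S.pp (p - 1) (q - 1) (S.mm p q f))
    - (8 * ev N q) • f

/-- degree `-2` part of the leaf Casimir -/
noncomputable def lm (S : Lad V n N) (p q : ℝ) (f : V) : V :=
  -(2 * q + N) • S.mm (p - 1) (q + 1) (S.mp p q f)
    + (2 * q + N - 4) • S.mp (p - 1) (q - 1) (S.mm p q f)

theorem LamL_expand' (hf : S.Ty p q f) (hp : 0 < 2 * p + n - 4) (hq : S.Qc p q f) :
    S.LamL f = S.l2 p q f + S.l0 p q f + S.lm p q f := by
  have hQ := hq.hq
  rcases hq with hq | ⟨hq, h1, h2⟩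
  · exact LamL_expand hf hp hq
  have hp1 : 2 * p + n - 2 ≠ 0 := by intro h; linarith
  have hp2 : 2 * (p + 1) + n - 2 ≠ 0 := by intro h; linarith
  have hp3 : 2 * (p - 1) + n - 2 ≠ 0 := by intro h; linarith
  have hq1 : 2 * q + N - 2 ≠ 0 := hQ.ne'
  have hq2 : 2 * q + N ≠ 0 := by intro h; linarith
  have hd : dn S.X S.D N q f = 0 := by rw [← pm_add_mm hp1 f, h1, h2, add_zero]
  unfold LamL l2 l0 lm
  rw [quad_eq0 S.relD hf.2 hq1 hq2 hd, ← pp_add_mp hp1 f, hf.2, map_add]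
  rw [← pm_add_mm hp2 (S.pp p q f), ← pm_add_mm hp3 (S.mp p q f), h1, h2]
  simp only [map_zero]
  module

theorem ty_l2 (hf : S.Ty p q f) : S.Ty (p + 2) q (S.l2 p q f) := by
  refine Ty.add (Ty.smul _ ?_) (Ty.smul _ ?_)
  · exact (ty_pm (ty_pp hf)).cast (by ring) (by ring)
  · exact (ty_pp (ty_pm hf)).cast (by ring) (by ring)

theorem ty_l0 (hf : S.Ty p q f) : S.Ty p q (S.l0 p q f) := by
  refine Ty.sub (Ty.add (Ty.smul _ (Ty.add ?_ ?_)) (Ty.smul _ (Ty.add ?_ ?_))) (hf.smul _)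
  · exact (ty_mm (ty_pp hf)).cast (by ring) (by ring)
  · exact (ty_pm (ty_mp hf)).cast (by ring) (by ring)
  · exact (ty_mp (ty_pm hf)).cast (by ring) (by ring)
  · exact (ty_pp (ty_mm hf)).cast (by ring) (by ring)

theorem ty_lm (hf : S.Ty p q f) : S.Ty (p - 2) q (S.lm p q f) := by
  refine Ty.add (Ty.smul _ ?_) (Ty.smul _ ?_)
  · exact (ty_mm (ty_mp hf)).cast (by ring) (by ring)
  · exact (ty_mp (ty_mm hf)).cast (by ring) (by ring)

/-- `[LamL, X] = 0`, leaf degree `+1`, by total degree `+3, +1, -1, -3` -/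
theorem K_up (hf : S.Ty p q f) (hp : 2 ≤ p) (hq : S.Qc p q f) :
    (S.l0 (p + 1) (q + 1) (S.pp p q f) + S.l2 (p - 1) (q + 1) (S.mp p q f)
      = S.pp p q (S.l0 p q f) + S.mp (p + 2) q (S.l2 p q f)) ∧
    (S.lm (p + 1) (q + 1) (S.pp p q f) + S.l0 (p - 1) (q + 1) (S.mp p q f)
      = S.mp p q (S.l0 p q f) + S.pp (p - 2) q (S.lm p q f)) := by
  have hn := S.hn
  have hN := S.hN
  have hQ := hq.hq
  have hL : S.LamL (up S.X S.D N q f) = up S.X S.D N q (S.LamL f) := LamL_upD f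
  rw [← pp_add_mp (p := p) (by intro h; linarith) f, LamL_add,
    LamL_expand' (ty_pp hf) (by linarith) (Or.inl (by linarith)),
    LamL_expand' (ty_mp hf) (by linarith) (Or.inl (by linarith)),
    LamL_expand' hf (by linarith) hq, map_add, map_add,
    ← pp_add_mp (p := p + 2) (by intro h; linarith) (S.l2 p q f),
    ← pp_add_mp (p := p) (by intro h; linarith) (S.l0 p q f),
    ← pp_add_mp (p := p - 2) (by intro h; linarith) (S.lm p q f)] at hL
  have a1 := (ty_l2 (ty_pp hf)).1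
  have a2 := (ty_l0 (ty_pp hf)).1
  have a3 := (ty_lm (ty_pp hf)).1
  have b1 := (ty_l2 (ty_mp hf)).1
  have b2 := (ty_l0 (ty_mp hf)).1
  have b3 := (ty_lm (ty_mp hf)).1
  have c1 := (ty_pp (ty_l2 hf)).1
  have c2 := (ty_pp (ty_l0 hf)).1
  have c3 := (ty_pp (ty_lm hf)).1
  have d1 := (ty_mp (ty_l2 hf)).1
  have d2 := (ty_mp (ty_l0 hf)).1
  have d3 := (ty_mp (ty_lm hf)).1
  have e1 : p + 1 + 2 = p + 3 := by ring
  have e2 : p + 1 - 2 = p - 1 := by ring
  have e3 : p - 1 + 2 = p + 1 := by ring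
  have e4 : p - 1 - 2 = p - 3 := by ring
  have e5 : p + 2 + 1 = p + 3 := by ring
  have e6 : p + 2 - 1 = p + 1 := by ring
  have e7 : p - 2 + 1 = p - 1 := by ring
  have e8 : p - 2 - 1 = p - 3 := by ring
  rw [e1] at a1
  rw [e2] at a3
  rw [e3] at b1
  rw [e4] at b3
  rw [e5] at c1
  rw [e7] at c3
  rw [e6] at d1
  rw [e8] at d3
  have t1 : S.E (S.l2 (p + 1) (q + 1) (S.pp p q f) - S.pp (p + 2) q (S.l2 p q f))
      = ev n (p + 3) • (S.l2 (p + 1) (q + 1) (S.pp p q f) - S.pp (p + 2) q (S.l2 p q f)) := by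
    rw [map_sub, a1, c1, smul_sub]
  have t2 : S.E ((S.l0 (p + 1) (q + 1) (S.pp p q f) + S.l2 (p - 1) (q + 1) (S.mp p q f))
        - (S.pp p q (S.l0 p q f) + S.mp (p + 2) q (S.l2 p q f)))
      = ev n (p + 1) • ((S.l0 (p + 1) (q + 1) (S.pp p q f) + S.l2 (p - 1) (q + 1) (S.mp p q f))
        - (S.pp p q (S.l0 p q f) + S.mp (p + 2) q (S.l2 p q f))) := by
    rw [map_sub, map_add, map_add, a2, b1, c2, d1]; module
  have t3 : S.E ((S.lm (p + 1) (q + 1) (S.pp p q f) + S.l0 (p - 1) (q + 1) (S.mp p q f))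
        - (S.mp p q (S.l0 p q f) + S.pp (p - 2) q (S.lm p q f)))
      = ev n (p - 1) • ((S.lm (p + 1) (q + 1) (S.pp p q f) + S.l0 (p - 1) (q + 1) (S.mp p q f))
        - (S.mp p q (S.l0 p q f) + S.pp (p - 2) q (S.lm p q f))) := by
    rw [map_sub, map_add, map_add, a3, b2, c3, d2]; module
  have t4 : S.E (S.lm (p - 1) (q + 1) (S.mp p q f) - S.mp (p - 2) q (S.lm p q f))
      = ev n (p - 3) • (S.lm (p - 1) (q + 1) (S.mp p q f) - S.mp (p - 2) q (S.lm p q f)) := by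
    rw [map_sub, b3, d3, smul_sub]
  have hs := sep4 t1 t2 t3 t4 (ev_ne_of' (by linarith) (by linarith))
    (ev_ne_of' (by linarith) (by linarith)) (ev_ne_of' (by linarith) (by linarith))
    (ev_ne_of' (by linarith) (by linarith)) (ev_ne_of' (by linarith) (by linarith))
    (ev_ne_of' (by linarith) (by linarith)) (by
      rw [← sub_eq_zero.2 hL]; abel)
  exact ⟨sub_eq_zero.1 hs.2.1, sub_eq_zero.1 hs.2.2.1⟩

/-- `[LamL, X] = 0`, leaf degree `-1` -/
theorem K_dn (hf : S.Ty p q f) (hp : 2 ≤ p) (hq : 0 < 2 * (q - 1) + N - 4) :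
    (S.l0 (p + 1) (q - 1) (S.pm p q f) + S.l2 (p - 1) (q - 1) (S.mm p q f)
      = S.pm p q (S.l0 p q f) + S.mm (p + 2) q (S.l2 p q f)) ∧
    (S.lm (p + 1) (q - 1) (S.pm p q f) + S.l0 (p - 1) (q - 1) (S.mm p q f)
      = S.mm p q (S.l0 p q f) + S.pm (p - 2) q (S.lm p q f)) := by
  have hn := S.hn
  have hN := S.hN
  have hL : S.LamL (dn S.X S.D N q f) = dn S.X S.D N q (S.LamL f) := LamL_dnD f
  rw [← pm_add_mm (p := p) (by intro h; linarith) f, LamL_add,
    LamL_expand' (ty_pm hf) (by linarith) (Or.inl (by linarith)),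
    LamL_expand' (ty_mm hf) (by linarith) (Or.inl (by linarith)),
    LamL_expand' hf (by linarith) (Or.inl (by linarith)), map_add, map_add,
    ← pm_add_mm (p := p + 2) (by intro h; linarith) (S.l2 p q f),
    ← pm_add_mm (p := p) (by intro h; linarith) (S.l0 p q f),
    ← pm_add_mm (p := p - 2) (by intro h; linarith) (S.lm p q f)] at hL
  have a1 := (ty_l2 (ty_pm hf)).1
  have a2 := (ty_l0 (ty_pm hf)).1
  have a3 := (ty_lm (ty_pm hf)).1
  have b1 := (ty_l2 (ty_mm hf)).1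
  have b2 := (ty_l0 (ty_mm hf)).1
  have b3 := (ty_lm (ty_mm hf)).1
  have c1 := (ty_pm (ty_l2 hf)).1
  have c2 := (ty_pm (ty_l0 hf)).1
  have c3 := (ty_pm (ty_lm hf)).1
  have d1 := (ty_mm (ty_l2 hf)).1
  have d2 := (ty_mm (ty_l0 hf)).1
  have d3 := (ty_mm (ty_lm hf)).1
  have e1 : p + 1 + 2 = p + 3 := by ring
  have e2 : p + 1 - 2 = p - 1 := by ring
  have e3 : p - 1 + 2 = p + 1 := by ring
  have e4 : p - 1 - 2 = p - 3 := by ring
  have e5 : p + 2 + 1 = p + 3 := by ring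
  have e6 : p + 2 - 1 = p + 1 := by ring
  have e7 : p - 2 + 1 = p - 1 := by ring
  have e8 : p - 2 - 1 = p - 3 := by ring
  rw [e1] at a1
  rw [e2] at a3
  rw [e3] at b1
  rw [e4] at b3
  rw [e5] at c1
  rw [e7] at c3
  rw [e6] at d1
  rw [e8] at d3
  have t1 : S.E (S.l2 (p + 1) (q - 1) (S.pm p q f) - S.pm (p + 2) q (S.l2 p q f))
      = ev n (p + 3) • (S.l2 (p + 1) (q - 1) (S.pm p q f) - S.pm (p + 2) q (S.l2 p q f)) := by
    rw [map_sub, a1, c1, smul_sub]
  have t2 : S.E ((S.l0 (p + 1) (q - 1) (S.pm p q f) + S.l2 (p - 1) (q - 1) (S.mm p q f))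
        - (S.pm p q (S.l0 p q f) + S.mm (p + 2) q (S.l2 p q f)))
      = ev n (p + 1) • ((S.l0 (p + 1) (q - 1) (S.pm p q f) + S.l2 (p - 1) (q - 1) (S.mm p q f))
        - (S.pm p q (S.l0 p q f) + S.mm (p + 2) q (S.l2 p q f))) := by
    rw [map_sub, map_add, map_add, a2, b1, c2, d1]; module
  have t3 : S.E ((S.lm (p + 1) (q - 1) (S.pm p q f) + S.l0 (p - 1) (q - 1) (S.mm p q f))
        - (S.mm p q (S.l0 p q f) + S.pm (p - 2) q (S.lm p q f)))
      = ev n (p - 1) • ((S.lm (p + 1) (q - 1) (S.pm p q f) + S.l0 (p - 1) (q - 1) (S.mm p q f))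
        - (S.mm p q (S.l0 p q f) + S.pm (p - 2) q (S.lm p q f))) := by
    rw [map_sub, map_add, map_add, a3, b2, c3, d2]; module
  have t4 : S.E (S.lm (p - 1) (q - 1) (S.mm p q f) - S.mm (p - 2) q (S.lm p q f))
      = ev n (p - 3) • (S.lm (p - 1) (q - 1) (S.mm p q f) - S.mm (p - 2) q (S.lm p q f)) := by
    rw [map_sub, b3, d3, smul_sub]
  have hs := sep4 t1 t2 t3 t4 (ev_ne_of' (by linarith) (by linarith))
    (ev_ne_of' (by linarith) (by linarith)) (ev_ne_of' (by linarith) (by linarith))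
    (ev_ne_of' (by linarith) (by linarith)) (ev_ne_of' (by linarith) (by linarith))
    (ev_ne_of' (by linarith) (by linarith)) (by
      rw [← sub_eq_zero.2 hL]; abel)
  exact ⟨sub_eq_zero.1 hs.2.1, sub_eq_zero.1 hs.2.2.1⟩

end Lad

end Vale.Agent.P207.H468
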