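import Mathlib
import Vale.Agent.P207.H468.Unif

/-!
Ladder calculus, part 9: the operator `B* B` preserves the divergence free functions of
type `(2, 2)`.
-/

namespace Vale.Agent.P207.H468

namespace Lad

variable {V : Type*} [AddCommGroup V] [Module ℝ V] {n N : ℝ}

/-- type `(2, 2)` and divergence free -/
structure Tt (S : Lad V n N) (h : V) : Prop where
  ty : S.Ty 2 2 h
  mp : S.mp 2 2 h = 0
  mm : S.mm 2 2 h = 0

variable {S : Lad V n N} {h h' : V}

theorem Tt.dn (T : S.Tt h) : dn S.X S.E n 2 h = 0 := by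
  have := S.hN
  rw [← mp_add_mm (q := 2) (by intro h; linarith) h, T.mp, T.mm, add_zero]

theorem Tt.EX (T : S.Tt h) : S.E (S.X h) = ev n 3 • S.X h := by
  have hn := S.hn
  have h1 : S.X h = up S.X S.E n 2 h := by
    have := up_add_dn (X := S.X) (T := S.E) (m := n) (p := 2) (f := h) (by intro h; linarith)
    rw [T.dn, add_zero] at this
    exact this.symm
  have h2 := T_up S.relE T.ty.1
  rw [← h1] at h2
  have e : (2 : ℝ) + 1 = 3 := by norm_num
  rw [e] at h2
  exact h2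

theorem Tt.of_EX (ht : S.Ty 2 2 h) (hd : S.E (S.X h) = ev n 3 • S.X h) : S.Tt h := by
  have hdn : Vale.Agent.P207.H468.dn S.X S.E n 2 h = 0 := by
    show pr S.E _ _ (S.X h) = 0
    rw [pr_apply, hd]
    have : (2 : ℝ) + 1 = 3 := by norm_num
    rw [this, sub_self, smul_zero]
  refine ⟨ht, ?_, ?_⟩
  · show pr S.D _ _ (Vale.Agent.P207.H468.dn S.X S.E n 2 h) = 0
    rw [hdn, map_zero]
  · show pr S.D _ _ (Vale.Agent.P207.H468.dn S.X S.E n 2 h) = _
    rw [hdn, map_zero]

theorem Tt.lam (T : S.Tt h) : S.Tt (S.Lam h) := by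
  have h0 : S.Lam (0 : V) = 0 := by
    have := Lam_smul (S := S) (0 : ℝ) (0 : V)
    rwa [zero_smul, zero_smul] at this
  refine ⟨ty_Lam T.ty, ?_, ?_⟩
  · rw [← Lam_mp, T.mp, h0]
  · rw [← Lam_mm, T.mm, h0]

theorem Tt.add (T : S.Tt h) (T' : S.Tt h') : S.Tt (h + h') :=
  ⟨T.ty.add T'.ty, by rw [map_add, T.mp, T'.mp, add_zero],
    by rw [map_add, T.mm, T'.mm, add_zero]⟩

theorem Tt.smul (c : ℝ) (T : S.Tt h) : S.Tt (c • h) :=
  ⟨T.ty.smul c, by rw [map_smul, T.mp, smul_zero], by rw [map_smul, T.mm, smul_zero]⟩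

theorem Tt.zero : S.Tt (0 : V) := ⟨Ty.zero, map_zero _, map_zero _⟩

/-- `A* A + B* B` on divergence free functions of type `(2, 2)` -/
theorem Tt.sum (T : S.Tt h) :
    (4 + n) • (S.mm 3 3 (S.pp 2 2 h) + S.mp 3 1 (S.pm 2 2 h))
      = -(2 * ev n 2 + 6 * ev N 2) • h - S.Lam h := by
  have hn := S.hn
  have hN := S.hN
  have h1 := R_zero T.ty (by linarith) (by linarith)
  rw [T.mp, T.mm] at h1
  norm_num at h1
  rw [smul_add, h1]
  module

/-- **SPLIT**: `B* B` preserves the divergence free functions of type `(2, 2)` -/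
theorem Tt.bb (T : S.Tt h) : S.Tt (S.mp 3 1 (S.pm 2 2 h)) := by
  have hn := S.hn
  have hN := S.hN
  have q1 : S.Qc 2 2 h := Or.inl (by linarith)
  have k1 := (K_up T.ty (le_refl _) q1).2
  have k2 := (K_dn T.ty (le_refl _) (by linarith)).2
  have r1 := R_pp T.ty (by linarith) (by linarith)
  have r2 := R_mm T.ty (by linarith) (by linarith)
  rw [T.mp, map_zero, smul_zero] at r1
  rw [T.mm, map_zero, smul_zero] at r2
  have r1' : S.mp (2 + 1) (2 + 1) (S.pp 2 2 h) = 0 := by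
    rcases smul_eq_zero.1 r1 with h1 | h1
    · exfalso; linarith
    · exact h1
  have r2' : S.mm (2 + 1) (2 - 1) (S.pm 2 2 h) = 0 := by
    rcases smul_eq_zero.1 r2 with h1 | h1
    · exfalso; linarith
    · exact h1
  have z0 : ∀ p q : ℝ, S.l0 p q (0 : V) = 0 := by
    intro p q; unfold l0; simp
  have z1 : S.lm 2 2 h = 0 := by
    unfold lm; rw [T.mp, T.mm]; simp
  rw [z1, T.mp, z0, map_zero, add_zero, add_zero] at k1
  rw [z1, T.mm, z0, map_zero, add_zero, add_zero] at k2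
  unfold lm l0 at k1 k2
  rw [r1', T.mp, T.mm] at k1
  rw [r2', T.mp, T.mm] at k2
  norm_num at k1 k2
  have hs := T.sum
  have hn4 : (4 + n) ≠ 0 := by intro h; linarith
  set t := S.mp 3 1 (S.pm 2 2 h) with ht
  set m := S.mm 3 3 (S.pp 2 2 h) with hm
  have e1 : (4 + n) • S.mp 2 2 m = -((4 + n) • S.mp 2 2 t) := by
    have := congrArg (S.mp 2 2) hs
    rw [map_smul, map_add, map_sub, map_smul, T.mp, T.lam.mp, smul_zero, sub_zero,
      smul_add] at this
    exact eq_neg_of_add_eq_zero_left this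
  have e2 : (4 + n) • S.mm 2 2 m = -((4 + n) • S.mm 2 2 t) := by
    have := congrArg (S.mm 2 2) hs
    rw [map_smul, map_add, map_sub, map_smul, T.mm, T.lam.mm, smul_zero, sub_zero,
      smul_add] at this
    exact eq_neg_of_add_eq_zero_left this
  have e1' : S.mp 2 2 m = - S.mp 2 2 t := by
    have := congrArg (fun v => (4 + n)⁻¹ • v) e1
    simp only [smul_neg, smul_smul, inv_mul_cancel₀ hn4, one_smul] at this
    exact this
  have e2' : S.mm 2 2 m = - S.mm 2 2 t := by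
    have := congrArg (fun v => (4 + n)⁻¹ • v) e2
    simp only [smul_neg, smul_smul, inv_mul_cancel₀ hn4, one_smul] at this
    exact this
  simp only [T.mp, T.mm, e1', e2', smul_zero] at k1 k2
  refine ⟨?_, ?_, ?_⟩
  · have k := ty_mp (ty_pm T.ty)
    have e3 : (2 : ℝ) + 1 = 3 := by norm_num
    have e4 : (2 : ℝ) - 1 = 1 := by norm_num
    have e5 : (3 : ℝ) - 1 = 2 := by norm_num
    have e6 : (1 : ℝ) + 1 = 2 := by norm_num
    rw [e3, e4, e5, e6] at k
    exact k
  · have : (3 * (N + 2)) • S.mp 2 2 t = 0 := by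
      linear_combination (norm := module) -k1
    rcases smul_eq_zero.1 this with h1 | h1
    · exfalso; linarith
    · exact h1
  · have : (3 * (N + 2)) • S.mm 2 2 t = 0 := by
      linear_combination (norm := module) -k2
    rcases smul_eq_zero.1 this with h1 | h1
    · exfalso; linarith
    · exact h1

/-- `B* B` is symmetric -/
theorem Tt.bb_symm (T : S.Tt h) (T' : S.Tt h') :
    S.ip (S.mp 3 1 (S.pm 2 2 h)) h' = S.ip h (S.mp 3 1 (S.pm 2 2 h')) := by
  have hn := S.hn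
  have hN := S.hN
  have e3 : (2 : ℝ) + 1 = 3 := by norm_num
  have e4 : (2 : ℝ) - 1 = 1 := by norm_num
  have k1 := adj_pm T.ty (ty_pm T'.ty) (by linarith) (by linarith)
  have k2 := adj_pm T'.ty (ty_pm T.ty) (by linarith) (by linarith)
  rw [e3, e4] at k1 k2
  rw [S.symm (S.mp 3 1 (S.pm 2 2 h)) h']
  have k3 := S.symm (S.pm 2 2 h) (S.pm 2 2 h')
  linarith

/-- `⟨B* B h, h'⟩ = ⟨B h, B h'⟩` -/
theorem Tt.bb_ip (T : S.Tt h) (T' : S.Tt h') :
    S.ip h (S.mp 3 1 (S.pm 2 2 h')) = - S.ip (S.pm 2 2 h) (S.pm 2 2 h') := by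
  have hn := S.hn
  have hN := S.hN
  have e3 : (2 : ℝ) + 1 = 3 := by norm_num
  have e4 : (2 : ℝ) - 1 = 1 := by norm_num
  have k1 := adj_pm T.ty (ty_pm T'.ty) (by linarith) (by linarith)
  rw [e3, e4] at k1
  linarith

end Lad

end Vale.Agent.P207.H468
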