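import Mathlib
import Vale.Agent.P207.H468.Split

/-!
Ladder calculus, part 10: the module generated by a space of divergence free functions of type
`(2, 2)` which is invariant under `B* B` consists of the words in `A, B`.
-/

namespace Vale.Agent.P207.H468

namespace Lad

variable {V : Type*} [AddCommGroup V] [Module ℝ V] {n N : ℝ}

/-- up-words over `B` : total degree `k`, leaf degree `q` -/
inductive UU (S : Lad V n N) (B : Submodule ℝ V) : ℕ → ℕ → V → Prop
  | base {h : V} : h ∈ B → UU S B 2 2 h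
  | zero {k q : ℕ} : UU S B k q 0
  | add {k q : ℕ} {u v : V} : UU S B k q u → UU S B k q v → UU S B k q (u + v)
  | smul {k q : ℕ} {u : V} (c : ℝ) : UU S B k q u → UU S B k q (c • u)
  | pp {k q : ℕ} {u : V} (p r : ℝ) : (k : ℝ) = p → (q : ℝ) = r → 2 ≤ k → UU S B k q u →
      UU S B (k + 1) (q + 1) (S.pp p r u)
  | pm {k q : ℕ} {u : V} (p r : ℝ) : (k : ℝ) = p → (q : ℝ) + 1 = r → 2 ≤ k →
      UU S B k (q + 1) u → UU S B (k + 1) q (S.pm p r u)

/-- the up-words as a submodule -/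
def US (S : Lad V n N) (B : Submodule ℝ V) (k q : ℕ) : Submodule ℝ V where
  carrier := {u | UU S B k q u}
  add_mem' h1 h2 := UU.add h1 h2
  zero_mem' := UU.zero
  smul_mem' c _ h := UU.smul c h

theorem mem_US {S : Lad V n N} {B : Submodule ℝ V} {k q : ℕ} {u : V} :
    u ∈ US S B k q ↔ UU S B k q u := Iff.rfl

/-- the hypotheses -/
structure Bas (S : Lad V n N) (B : Submodule ℝ V) : Prop where
  tt : ∀ h ∈ B, S.Tt h
  bb : ∀ h ∈ B, S.mp 3 1 (S.pm 2 2 h) ∈ B
  lam : ∀ h ∈ B, S.Lam h ∈ B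
  hN : 3 < N
  pos : ∀ f, 0 ≤ S.ip (S.D f) f
  pos' : ∀ f, 0 ≤ S.ip f f
  def' : ∀ f, S.ip f f = 0 → f = 0

variable {S : Lad V n N} {B : Submodule ℝ V}

theorem UU.ty (H : Bas S B) {k q : ℕ} {u : V} (h : UU S B k q u) : S.Ty (k : ℝ) (q : ℝ) u := by
  induction h with
  | base hb => exact (H.tt _ hb).ty.cast (by norm_num) (by norm_num)
  | zero => exact Ty.zero
  | add _ _ h1 h2 => exact h1.add h2
  | smul c _ h1 => exact h1.smul c
  | pp p r hp hr _ _ h1 =>
    subst hp; subst hr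
    exact (ty_pp h1).cast (by push_cast; ring) (by push_cast; ring)
  | pm p r hp hr _ _ h1 =>
    subst hp; subst hr
    have h2 := h1.cast rfl (Nat.cast_add_one _)
    exact (ty_pm h2).cast (by push_cast; ring) (by push_cast; ring)

theorem US.ty (H : Bas S B) {k q : ℕ} {u : V} (h : u ∈ US S B k q) : S.Ty (k : ℝ) (q : ℝ) u :=
  UU.ty H h

/-- nothing below leaf degree `0` -/
theorem Bas.neg (H : Bas S B) {u : V} (h : S.D u = ev N (-1) • u) : u = 0 := by
  have h1 := H.pos u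
  rw [h, ip_smul_left] at h1
  have e : ev N (-1) = -(N - 3) := by unfold ev; ring
  rw [e] at h1
  have h2 := H.pos' u
  have h3 := H.hN
  have h4 : S.ip u u = 0 := by nlinarith
  exact H.def' u h4

theorem Bas.pm0 (H : Bas S B) {p : ℝ} {u : V} (h : S.Ty p 0 u) : S.pm p 0 u = 0 := by
  have h1 := (ty_pm h).2
  rw [zero_sub] at h1
  exact H.neg h1

theorem Bas.mm0 (H : Bas S B) {p : ℝ} {u : V} (h : S.Ty p 0 u) : S.mm p 0 u = 0 := by
  have h1 := (ty_mm h).2
  rw [zero_sub] at h1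
  exact H.neg h1

theorem Bas.qc (H : Bas S B) {p : ℝ} {q : ℕ} {u : V} (h : S.Ty p (q : ℝ) u) :
    S.Qc p (q : ℝ) u := by
  rcases Nat.eq_zero_or_pos q with h0 | h0
  · subst h0
    rw [Nat.cast_zero] at h ⊢
    exact Or.inr ⟨rfl, H.pm0 h, H.mm0 h⟩
  · left
    have : (1 : ℝ) ≤ q := by exact_mod_cast h0
    have := H.hN
    linarith

/-- zero, or an up-word of total degree one less -/
def Dn (S : Lad V n N) (B : Submodule ℝ V) (k q : ℕ) (v : V) : Prop :=
  v = 0 ∨ ∃ k', k = k' + 1 ∧ 2 ≤ k' ∧ v ∈ US S B k' q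

theorem Dn.add {k q : ℕ} {u v : V} (h1 : Dn S B k q u) (h2 : Dn S B k q v) :
    Dn S B k q (u + v) := by
  rcases h1 with h1 | ⟨k', e1, e2, h1⟩
  · rw [h1, zero_add]; exact h2
  · rcases h2 with h2 | ⟨k'', e3, e4, h2⟩
    · rw [h2, add_zero]; exact Or.inr ⟨k', e1, e2, h1⟩
    · have : k'' = k' := by omega
      subst this
      exact Or.inr ⟨k'', e1, e2, Submodule.add_mem _ h1 h2⟩

theorem Dn.smul {k q : ℕ} {u : V} (c : ℝ) (h1 : Dn S B k q u) : Dn S B k q (c • u) := by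
  rcases h1 with h1 | ⟨k', e1, e2, h1⟩
  · left; rw [h1, smul_zero]
  · exact Or.inr ⟨k', e1, e2, Submodule.smul_mem _ _ h1⟩

/-- raising a vector of `Dn` by `pp` -/
theorem Dn.pp {k q : ℕ} {v : V} {p r : ℝ} (h : Dn S B k q v) (hp : p = (k : ℝ) - 1)
    (hr : r = q) : S.pp p r v ∈ US S B k (q + 1) := by
  rcases h with h | ⟨k', e1, e2, h⟩
  · rw [h, map_zero]; exact Submodule.zero_mem _
  · subst e1
    exact UU.pp p r (by rw [hp]; push_cast; ring) hr.symm e2 h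

theorem Dn.pm {k q : ℕ} {v : V} {p r : ℝ} (h : Dn S B k (q + 1) v) (hp : p = (k : ℝ) - 1)
    (hr : r = (q : ℝ) + 1) : S.pm p r v ∈ US S B k q := by
  rcases h with h | ⟨k', e1, e2, h⟩
  · rw [h, map_zero]; exact Submodule.zero_mem _
  · subst e1
    exact UU.pm p r (by rw [hp]; push_cast; ring) hr.symm e2 h

/-- the statement which is proved by induction -/
structure PU (S : Lad V n N) (B : Submodule ℝ V) (k q : ℕ) (u : V) : Prop where
  mp : Dn S B k (q + 1) (S.mp (k : ℝ) (q : ℝ) u)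
  mm : ∀ q', q = q' + 1 → Dn S B k q' (S.mm (k : ℝ) (q : ℝ) u)
  lam : S.Lam u ∈ US S B k q
  m1 : S.mm ((k : ℝ) + 1) ((q : ℝ) + 1) (S.pp (k : ℝ) (q : ℝ) u) ∈ US S B k q
  m2 : S.mp ((k : ℝ) + 1) ((q : ℝ) - 1) (S.pm (k : ℝ) (q : ℝ) u) ∈ US S B k q

/-- the right hand side of the zero relation -/
theorem rz (H : Bas S B) {k q : ℕ} {u : V} (hk : 2 ≤ k) (hu : u ∈ US S B k q)
    (mp : Dn S B k (q + 1) (S.mp (k : ℝ) (q : ℝ) u))
    (mm : ∀ q', q = q' + 1 → Dn S B k q' (S.mm (k : ℝ) (q : ℝ) u))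
    (lam : S.Lam u ∈ US S B k q) :
    S.mm ((k : ℝ) + 1) ((q : ℝ) + 1) (S.pp (k : ℝ) (q : ℝ) u)
      + S.mp ((k : ℝ) + 1) ((q : ℝ) - 1) (S.pm (k : ℝ) (q : ℝ) u) ∈ US S B k q := by
  have hk' : (2 : ℝ) ≤ k := by exact_mod_cast hk
  have hn := S.hn
  have hty := US.ty H hu
  have h := R_zero' hty (by linarith) (H.qc hty)
  have h0 : (2 * (k : ℝ) + n) ≠ 0 := by intro h; linarith
  rw [← Submodule.smul_mem_iff _ h0, h]
  refine Submodule.sub_mem _ (Submodule.sub_mem _ (Submodule.smul_mem _ _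
    (Submodule.add_mem _ ?_ ?_)) (Submodule.smul_mem _ _ hu)) lam
  · exact mp.pm rfl rfl
  · rcases Nat.eq_zero_or_pos q with h1 | h1
    · subst h1
      rw [Nat.cast_zero] at hty ⊢
      rw [H.mm0 hty, map_zero]; exact Submodule.zero_mem _
    · obtain ⟨q', rfl⟩ : ∃ q', q = q' + 1 := ⟨q - 1, by omega⟩
      exact (mm q' rfl).pp rfl (by push_cast; ring)

theorem l2_mem (H : Bas S B) {k q : ℕ} {v : V} {p r : ℝ} (hk : 2 ≤ k) (hp : (k : ℝ) = p)
    (hr : (q : ℝ) = r) (hv : v ∈ US S B k q) : S.l2 p r v ∈ US S B (k + 2) q := by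
  have hty := US.ty H hv
  subst hp; subst hr
  refine Submodule.add_mem _ (Submodule.smul_mem _ _ ?_) (Submodule.smul_mem _ _ ?_)
  · exact UU.pm _ _ (by push_cast; ring) rfl (by omega) (UU.pp _ _ rfl rfl hk hv)
  · rcases Nat.eq_zero_or_pos q with h1 | h1
    · subst h1
      rw [Nat.cast_zero] at hty ⊢
      rw [H.pm0 hty, map_zero]; exact Submodule.zero_mem _
    · obtain ⟨q', rfl⟩ : ∃ q', q = q' + 1 := ⟨q - 1, by omega⟩
      exact UU.pp _ _ (by push_cast; ring) (by push_cast; ring) (by omega)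
        (UU.pm _ _ rfl (by push_cast; ring) hk hv)

theorem l2_Dn (H : Bas S B) {k q : ℕ} {v : V} {p r : ℝ} (hp : (k : ℝ) - 1 = p)
    (hr : (q : ℝ) = r) (hv : Dn S B k q v) : S.l2 p r v ∈ US S B (k + 1) q := by
  rcases hv with h | ⟨k', e1, e2, h⟩
  · rw [h]; unfold l2; simp
  · subst e1
    exact l2_mem H e2 (by rw [← hp]; push_cast; ring) hr h

theorem PU.l0 (H : Bas S B) {k q : ℕ} {u : V} (P : PU S B k q u) (hu : u ∈ US S B k q) :
    S.l0 (k : ℝ) (q : ℝ) u ∈ US S B k q := by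
  have hty := US.ty H hu
  refine Submodule.sub_mem _ (Submodule.add_mem _ (Submodule.smul_mem _ _
    (Submodule.add_mem _ P.m1 (P.mp.pm rfl rfl)))
    (Submodule.smul_mem _ _ (Submodule.add_mem _ P.m2 ?_))) (Submodule.smul_mem _ _ hu)
  rcases Nat.eq_zero_or_pos q with h1 | h1
  · subst h1
    rw [Nat.cast_zero] at hty ⊢
    rw [H.mm0 hty, map_zero]; exact Submodule.zero_mem _
  · obtain ⟨q', rfl⟩ : ∃ q', q = q' + 1 := ⟨q - 1, by omega⟩
    exact (P.mm q' rfl).pp rfl (by push_cast; ring)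

theorem PU.base (H : Bas S B) {h : V} (hb : h ∈ B) : PU S B 2 2 h := by
  have T := H.tt h hb
  have e2 : ((2 : ℕ) : ℝ) = 2 := by norm_num
  have e3 : (2 : ℝ) + 1 = 3 := by norm_num
  have e4 : (2 : ℝ) - 1 = 1 := by norm_num
  have m2 : S.mp 3 1 (S.pm 2 2 h) ∈ US S B 2 2 := UU.base (H.bb h hb)
  have hL : S.Lam h ∈ US S B 2 2 := UU.base (H.lam h hb)
  refine ⟨?_, ?_, hL, ?_, ?_⟩
  · rw [e2]; exact Or.inl T.mp
  · intro q' _; rw [e2]; exact Or.inl T.mm
  · rw [e2, e3]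
    have hs := T.sum
    have hn := S.hn
    have h0 : (4 + n) ≠ 0 := by intro h; linarith
    have hsum : S.mm 3 3 (S.pp 2 2 h) + S.mp 3 1 (S.pm 2 2 h) ∈ US S B 2 2 := by
      rw [← Submodule.smul_mem_iff _ h0, hs]
      exact Submodule.sub_mem _ (Submodule.smul_mem _ _ (UU.base hb)) hL
    have := Submodule.sub_mem _ hsum m2
    rwa [add_sub_cancel_right] at this
  · rw [e2, e3, e4]; exact m2

theorem PU.zero {k q : ℕ} : PU S B k q (0 : V) := by
  have h0 : S.Lam (0 : V) = 0 := by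
    have := Lam_smul (S := S) (0 : ℝ) (0 : V)
    rwa [zero_smul, zero_smul] at this
  refine ⟨Or.inl (map_zero _), fun _ _ => Or.inl (map_zero _), ?_, ?_, ?_⟩
  · rw [h0]; exact Submodule.zero_mem _
  · rw [map_zero, map_zero]; exact Submodule.zero_mem _
  · rw [map_zero, map_zero]; exact Submodule.zero_mem _

theorem PU.add {k q : ℕ} {u v : V} (h1 : PU S B k q u) (h2 : PU S B k q v) :
    PU S B k q (u + v) := by
  refine ⟨?_, ?_, ?_, ?_, ?_⟩
  · rw [map_add]; exact h1.mp.add h2.mp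
  · intro q' hq; rw [map_add]; exact (h1.mm q' hq).add (h2.mm q' hq)
  · rw [Lam_add]; exact Submodule.add_mem _ h1.lam h2.lam
  · rw [map_add, map_add]; exact Submodule.add_mem _ h1.m1 h2.m1
  · rw [map_add, map_add]; exact Submodule.add_mem _ h1.m2 h2.m2

theorem PU.smul {k q : ℕ} {u : V} (c : ℝ) (h1 : PU S B k q u) : PU S B k q (c • u) := by
  refine ⟨?_, ?_, ?_, ?_, ?_⟩
  · rw [map_smul]; exact h1.mp.smul c
  · intro q' hq; rw [map_smul]; exact (h1.mm q' hq).smul c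
  · rw [Lam_smul]; exact Submodule.smul_mem _ _ h1.lam
  · rw [map_smul, map_smul]; exact Submodule.smul_mem _ _ h1.m1
  · rw [map_smul, map_smul]; exact Submodule.smul_mem _ _ h1.m2

end Lad

end Vale.Agent.P207.H468
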