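import Mathlib
import Vale.Agent.P207.H468.Modu

/-!
Ladder calculus, part 11: the induction of the module theorem.
-/

namespace Vale.Agent.P207.H468

namespace Lad

variable {V : Type*} [AddCommGroup V] [Module ℝ V] {n N : ℝ}
variable {S : Lad V n N} {B : Submodule ℝ V}

/-- induction step for `A` -/
theorem PU.pp (H : Bas S B) {k q : ℕ} {g : V} (hk : 2 ≤ k) (hg : g ∈ US S B k q)
    (P : PU S B k q g) : PU S B (k + 1) (q + 1) (S.pp (k : ℝ) (q : ℝ) g) := by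
  have hk' : (2 : ℝ) ≤ k := by exact_mod_cast hk
  have hn := S.hn
  have hN := S.hN
  have hty := US.ty H hg
  have hqc := H.qc hty
  have hu : S.pp (k : ℝ) (q : ℝ) g ∈ US S B (k + 1) (q + 1) := UU.pp _ _ rfl rfl hk hg
  have ck : ((k + 1 : ℕ) : ℝ) = (k : ℝ) + 1 := by push_cast; ring
  have cq : ((q + 1 : ℕ) : ℝ) = (q : ℝ) + 1 := by push_cast; ring
  have c1 : (k : ℝ) + 1 + 1 = (k : ℝ) + 2 := by ring
  have c2 : (q : ℝ) + 1 - 1 = (q : ℝ) := by ring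
  have c3 : (q : ℝ) - 1 + 1 = (q : ℝ) := by ring
  have c4 : (k : ℝ) + 1 - 1 = (k : ℝ) := by ring
  have hmp : Dn S B (k + 1) (q + 1 + 1) (S.mp ((k + 1 : ℕ) : ℝ) ((q + 1 : ℕ) : ℝ)
      (S.pp (k : ℝ) (q : ℝ) g)) := by
    right
    refine ⟨k, rfl, hk, ?_⟩
    rw [ck, cq]
    have h := R_pp' hty (by linarith) hqc
    have h0 : (2 * (k : ℝ) + n) ≠ 0 := by intro h; linarith
    rw [← Submodule.smul_mem_iff _ h0, h]
    exact Submodule.smul_mem _ _ (P.mp.pp rfl (by push_cast; ring))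
  have hmm : ∀ q', q + 1 = q' + 1 → Dn S B (k + 1) q' (S.mm ((k + 1 : ℕ) : ℝ) ((q + 1 : ℕ) : ℝ)
      (S.pp (k : ℝ) (q : ℝ) g)) := by
    intro q' hq'
    have : q' = q := by omega
    subst this
    right
    refine ⟨k, rfl, hk, ?_⟩
    rw [ck, cq]
    exact P.m1
  have hlam : S.Lam (S.pp (k : ℝ) (q : ℝ) g) ∈ US S B (k + 1) (q + 1) := by
    rw [Lam_pp]; exact UU.pp _ _ rfl rfl hk P.lam
  have hz := rz H (by omega) hu hmp hmm hlam
  rw [ck, cq] at hz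
  have K := (K_up hty hk' hqc).1
  have m2 : S.mp ((k : ℝ) + 1 + 1) ((q : ℝ) + 1 - 1)
      (S.pm ((k : ℝ) + 1) ((q : ℝ) + 1) (S.pp (k : ℝ) (q : ℝ) g)) ∈ US S B (k + 1) (q + 1) := by
    have hc : 3 * (2 * (q : ℝ) + N) ≠ 0 := by
      have : (0 : ℝ) ≤ q := Nat.cast_nonneg q
      intro h; linarith
    -- the pieces
    have g1 : S.pp (k : ℝ) (q : ℝ) (S.l0 (k : ℝ) (q : ℝ) g) ∈ US S B (k + 1) (q + 1) :=
      UU.pp _ _ rfl rfl hk (P.l0 H hg)
    have g2 : S.l2 ((k : ℝ) - 1) ((q : ℝ) + 1) (S.mp (k : ℝ) (q : ℝ) g)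
        ∈ US S B (k + 1) (q + 1) := l2_Dn H rfl (by push_cast; ring) P.mp
    have g3 : S.mp ((k : ℝ) + 2) (q : ℝ) (S.pp ((k : ℝ) + 1) ((q : ℝ) - 1)
        (S.pm (k : ℝ) (q : ℝ) g)) ∈ US S B (k + 1) (q + 1) := by
      rcases Nat.eq_zero_or_pos q with h1 | h1
      · subst h1
        rw [Nat.cast_zero] at hty ⊢
        rw [H.pm0 hty, map_zero, map_zero]; exact Submodule.zero_mem _
      · obtain ⟨q', rfl⟩ : ∃ q', q = q' + 1 := ⟨q - 1, by omega⟩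
        have hty' := ty_pm hty
        have e : (((q' + 1 : ℕ) : ℝ)) - 1 = (q' : ℝ) := by push_cast; ring
        have hqc' := H.qc (hty'.cast rfl e)
        rw [← e] at hqc'
        have h := R_pp' hty' (by linarith) hqc'
        rw [c1, c3, c4] at h
        have h0 : (2 * ((k : ℝ) + 1) + n) ≠ 0 := by intro h; linarith
        rw [← Submodule.smul_mem_iff _ h0, h]
        exact Submodule.smul_mem _ _ (UU.pp _ _ rfl rfl hk P.m2)
    have g4 : S.pm ((k : ℝ) + 1 - 1) ((q : ℝ) + 1 + 1)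
        (S.mp ((k : ℝ) + 1) ((q : ℝ) + 1) (S.pp (k : ℝ) (q : ℝ) g))
        ∈ US S B (k + 1) (q + 1) := by
      have := hmp.pm (p := (k : ℝ) + 1 - 1) (r := (q : ℝ) + 1 + 1) (by rw [ck])
        (by push_cast; ring)
      rw [ck, cq] at this
      exact this
    have g5 : S.pp ((k : ℝ) + 1 - 1) ((q : ℝ) + 1 - 1)
        (S.mm ((k : ℝ) + 1) ((q : ℝ) + 1) (S.pp (k : ℝ) (q : ℝ) g))
        ∈ US S B (k + 1) (q + 1) := by
      have := (hmm q rfl).pp (p := (k : ℝ) + 1 - 1) (r := (q : ℝ) + 1 - 1) (by rw [ck])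
        (by ring)
      rw [ck, cq] at this
      exact this
    rw [← Submodule.smul_mem_iff _ hc]
    set u := S.pp (k : ℝ) (q : ℝ) g with hudef
    set M2 := S.mp ((k : ℝ) + 1 + 1) ((q : ℝ) + 1 - 1) (S.pm ((k : ℝ) + 1) ((q : ℝ) + 1) u)
      with hM2
    set M1 := S.mm ((k : ℝ) + 1 + 1) ((q : ℝ) + 1 + 1) (S.pp ((k : ℝ) + 1) ((q : ℝ) + 1) u)
      with hM1
    have hl2 : S.mp ((k : ℝ) + 2) (q : ℝ) (S.l2 (k : ℝ) (q : ℝ) g)
        = -(2 * (q : ℝ) + N) • M2 + (2 * (q : ℝ) + N - 4) •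
          S.mp ((k : ℝ) + 2) (q : ℝ) (S.pp ((k : ℝ) + 1) ((q : ℝ) - 1)
            (S.pm (k : ℝ) (q : ℝ) g)) := by
      unfold l2
      rw [map_add, map_smul, map_smul, hM2, c1, c2]
    rw [hl2] at K
    have hfin : (3 * (2 * (q : ℝ) + N)) • M2
        = S.pp (k : ℝ) (q : ℝ) (S.l0 (k : ℝ) (q : ℝ) g)
          - S.l2 ((k : ℝ) - 1) ((q : ℝ) + 1) (S.mp (k : ℝ) (q : ℝ) g)
          + (2 * (q : ℝ) + N - 4) • S.mp ((k : ℝ) + 2) (q : ℝ) (S.pp ((k : ℝ) + 1) ((q : ℝ) - 1)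
            (S.pm (k : ℝ) (q : ℝ) g))
          + (2 * ((q : ℝ) + 1) + N) • (M1 + M2)
          + (2 * ((q : ℝ) + 1) + N) • S.pm ((k : ℝ) + 1 - 1) ((q : ℝ) + 1 + 1)
            (S.mp ((k : ℝ) + 1) ((q : ℝ) + 1) u)
          - (2 * ((q : ℝ) + 1) + N - 4) • S.pp ((k : ℝ) + 1 - 1) ((q : ℝ) + 1 - 1)
            (S.mm ((k : ℝ) + 1) ((q : ℝ) + 1) u)
          + (8 * ev N ((q : ℝ) + 1)) • u := by
      unfold Lad.l0 at K
      rw [← hM1, ← hM2] at K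
      unfold Lad.l0
      linear_combination (norm := module) K
    rw [hfin]
    exact Submodule.add_mem _ (Submodule.sub_mem _ (Submodule.add_mem _ (Submodule.add_mem _
      (Submodule.add_mem _ (Submodule.sub_mem _ g1 g2) (Submodule.smul_mem _ _ g3))
      (Submodule.smul_mem _ _ hz)) (Submodule.smul_mem _ _ g4)) (Submodule.smul_mem _ _ g5))
      (Submodule.smul_mem _ _ hu)
  refine ⟨hmp, hmm, hlam, ?_, ?_⟩
  · rw [ck, cq]
    have := Submodule.sub_mem _ hz m2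
    rwa [add_sub_cancel_right] at this
  · rw [ck, cq]; exact m2

end Lad

end Vale.Agent.P207.H468
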