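import Mathlib
import Vale.Agent.P207.H468.Modu2

/-!
Ladder calculus, part 12: end of the induction, the module theorem.
-/

namespace Vale.Agent.P207.H468

namespace Lad

variable {V : Type*} [AddCommGroup V] [Module ℝ V] {n N : ℝ}
variable {S : Lad V n N} {B : Submodule ℝ V}

/-- induction step for the other raising operator -/
theorem PU.pm (H : Bas S B) {k q : ℕ} {g : V} (hk : 2 ≤ k) (hg : g ∈ US S B k (q + 1))
    (P : PU S B k (q + 1) g) : PU S B (k + 1) q (S.pm (k : ℝ) ((q : ℝ) + 1) g) := by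
  have hk' : (2 : ℝ) ≤ k := by exact_mod_cast hk
  have hn := S.hn
  have hN := S.hN
  have ck : ((k + 1 : ℕ) : ℝ) = (k : ℝ) + 1 := by push_cast; ring
  have cq : ((q + 1 : ℕ) : ℝ) = (q : ℝ) + 1 := by push_cast; ring
  have c1 : (k : ℝ) + 1 + 1 = (k : ℝ) + 2 := by ring
  have c2 : (q : ℝ) + 1 - 1 = (q : ℝ) := by ring
  have c4 : (k : ℝ) + 1 - 1 = (k : ℝ) := by ring
  have c5 : (q : ℝ) + 1 + 1 - 1 = (q : ℝ) + 1 := by ring
  have hty := US.ty H hg
  have hqc := H.qc hty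
  have P1 := P.m1
  have P2 := P.m2
  have P3 := P.mm q rfl
  have P4 := P.mp
  have P5 := P.l0 H hg
  rw [cq] at hty hqc P1 P2 P3 P4 P5
  have hu : S.pm (k : ℝ) ((q : ℝ) + 1) g ∈ US S B (k + 1) q := UU.pm _ _ rfl rfl hk hg
  have hmp : Dn S B (k + 1) (q + 1) (S.mp ((k + 1 : ℕ) : ℝ) (q : ℝ)
      (S.pm (k : ℝ) ((q : ℝ) + 1) g)) := by
    right
    refine ⟨k, rfl, hk, ?_⟩
    rw [ck]
    rw [c2] at P2
    exact P2
  have hmm : ∀ q', q = q' + 1 → Dn S B (k + 1) q' (S.mm ((k + 1 : ℕ) : ℝ) (q : ℝ)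
      (S.pm (k : ℝ) ((q : ℝ) + 1) g)) := by
    intro q' hq'
    right
    refine ⟨k, rfl, hk, ?_⟩
    rw [ck]
    have h := R_mm' hty (by linarith) hqc
    have h0 : (2 * (k : ℝ) + n) ≠ 0 := by intro h; linarith
    rw [c2] at h
    rw [← Submodule.smul_mem_iff _ h0, h]
    refine Submodule.smul_mem _ _ ?_
    subst hq'
    exact P3.pm rfl (by push_cast; ring)
  have hlam : S.Lam (S.pm (k : ℝ) ((q : ℝ) + 1) g) ∈ US S B (k + 1) q := by
    rw [Lam_pm]; exact UU.pm _ _ rfl rfl hk P.lam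
  have hz := rz H (by omega) hu hmp hmm hlam
  rw [ck] at hz
  have m1 : S.mm ((k : ℝ) + 1 + 1) ((q : ℝ) + 1)
      (S.pp ((k : ℝ) + 1) (q : ℝ) (S.pm (k : ℝ) ((q : ℝ) + 1) g)) ∈ US S B (k + 1) q := by
    rcases Nat.eq_zero_or_pos q with hq0 | hq0
    · have htu := US.ty H hu
      rw [ck] at htu
      subst hq0
      rw [Nat.cast_zero] at htu hz ⊢
      rw [H.pm0 htu, map_zero, add_zero] at hz
      exact hz
    have hq1 : (1 : ℝ) ≤ q := by exact_mod_cast hq0
    have K := (K_dn hty hk' (by linarith)).1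
    have hc : 3 * (2 * (q : ℝ) + N - 2) ≠ 0 := by intro h; linarith
    have g1 : S.pm (k : ℝ) ((q : ℝ) + 1) (S.l0 (k : ℝ) ((q : ℝ) + 1) g) ∈ US S B (k + 1) q :=
      UU.pm _ _ rfl rfl hk P5
    have g2 : S.l2 ((k : ℝ) - 1) ((q : ℝ) + 1 - 1) (S.mm (k : ℝ) ((q : ℝ) + 1) g)
        ∈ US S B (k + 1) q := l2_Dn H rfl (by ring) P3
    have g3 : S.mm ((k : ℝ) + 2) ((q : ℝ) + 1) (S.pm ((k : ℝ) + 1) ((q : ℝ) + 1 + 1)
        (S.pp (k : ℝ) ((q : ℝ) + 1) g)) ∈ US S B (k + 1) q := by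
      have h := R_mm' (ty_pp hty) (by linarith) (Or.inl (by linarith))
      rw [c1, c4, c5] at h
      have h0 : (2 * ((k : ℝ) + 1) + n) ≠ 0 := by intro h; linarith
      rw [← Submodule.smul_mem_iff _ h0, h]
      exact Submodule.smul_mem _ _ (UU.pm _ _ rfl rfl hk P1)
    have g4 : S.pm ((k : ℝ) + 1 - 1) ((q : ℝ) + 1)
        (S.mp ((k : ℝ) + 1) (q : ℝ) (S.pm (k : ℝ) ((q : ℝ) + 1) g)) ∈ US S B (k + 1) q := by
      have := hmp.pm (p := (k : ℝ) + 1 - 1) (r := (q : ℝ) + 1) (by rw [ck]) rfl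
      rw [ck] at this
      exact this
    have g5 : S.pp ((k : ℝ) + 1 - 1) ((q : ℝ) - 1)
        (S.mm ((k : ℝ) + 1) (q : ℝ) (S.pm (k : ℝ) ((q : ℝ) + 1) g)) ∈ US S B (k + 1) q := by
      obtain ⟨q', rfl⟩ : ∃ q', q = q' + 1 := ⟨q - 1, by omega⟩
      have := (hmm q' rfl).pp (p := (k : ℝ) + 1 - 1) (r := ((q' + 1 : ℕ) : ℝ) - 1) (by rw [ck])
        (by push_cast; ring)
      rw [ck] at this
      exact this
    rw [← Submodule.smul_mem_iff _ hc]
    rw [c2] at K g2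
    set u := S.pm (k : ℝ) ((q : ℝ) + 1) g with hudef
    set M2 := S.mp ((k : ℝ) + 1 + 1) ((q : ℝ) - 1) (S.pm ((k : ℝ) + 1) (q : ℝ) u) with hM2
    set M1 := S.mm ((k : ℝ) + 1 + 1) ((q : ℝ) + 1) (S.pp ((k : ℝ) + 1) (q : ℝ) u) with hM1
    have hl2 : S.mm ((k : ℝ) + 2) ((q : ℝ) + 1) (S.l2 (k : ℝ) ((q : ℝ) + 1) g)
        = -(2 * ((q : ℝ) + 1) + N) • S.mm ((k : ℝ) + 2) ((q : ℝ) + 1)
          (S.pm ((k : ℝ) + 1) ((q : ℝ) + 1 + 1) (S.pp (k : ℝ) ((q : ℝ) + 1) g))
          + (2 * ((q : ℝ) + 1) + N - 4) • M1 := by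
      unfold l2
      rw [map_add, map_smul, map_smul, hM1, c1, c2]
    rw [hl2] at K
    have hfin : (3 * (2 * (q : ℝ) + N - 2)) • M1
        = -(S.pm (k : ℝ) ((q : ℝ) + 1) (S.l0 (k : ℝ) ((q : ℝ) + 1) g)
          - S.l2 ((k : ℝ) - 1) (q : ℝ) (S.mm (k : ℝ) ((q : ℝ) + 1) g)
          - (2 * ((q : ℝ) + 1) + N) • S.mm ((k : ℝ) + 2) ((q : ℝ) + 1)
            (S.pm ((k : ℝ) + 1) ((q : ℝ) + 1 + 1) (S.pp (k : ℝ) ((q : ℝ) + 1) g))
          - (2 * (q : ℝ) + N - 4) • (M1 + M2)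
          + (2 * (q : ℝ) + N) • S.pm ((k : ℝ) + 1 - 1) ((q : ℝ) + 1)
            (S.mp ((k : ℝ) + 1) (q : ℝ) u)
          - (2 * (q : ℝ) + N - 4) • S.pp ((k : ℝ) + 1 - 1) ((q : ℝ) - 1)
            (S.mm ((k : ℝ) + 1) (q : ℝ) u)
          + (8 * ev N (q : ℝ)) • u) := by
      have K' := K
      rw [show S.l0 ((k : ℝ) + 1) (q : ℝ) u
        = -(2 * (q : ℝ) + N) • (M1 + S.pm ((k : ℝ) + 1 - 1) ((q : ℝ) + 1)
            (S.mp ((k : ℝ) + 1) (q : ℝ) u))
          + (2 * (q : ℝ) + N - 4) • (M2 + S.pp ((k : ℝ) + 1 - 1) ((q : ℝ) - 1)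
            (S.mm ((k : ℝ) + 1) (q : ℝ) u))
          - (8 * ev N (q : ℝ)) • u from rfl] at K'
      linear_combination (norm := module) -K'
    rw [hfin]
    exact Submodule.neg_mem _ (Submodule.add_mem _ (Submodule.sub_mem _ (Submodule.add_mem _
      (Submodule.sub_mem _ (Submodule.sub_mem _ (Submodule.sub_mem _ g1 g2)
        (Submodule.smul_mem _ _ g3)) (Submodule.smul_mem _ _ hz)) (Submodule.smul_mem _ _ g4))
      (Submodule.smul_mem _ _ g5)) (Submodule.smul_mem _ _ hu))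
  refine ⟨hmp, hmm, hlam, ?_, ?_⟩
  · rw [ck]; exact m1
  · rw [ck]
    have := Submodule.sub_mem _ hz m1
    rwa [add_sub_cancel_left] at this

theorem UU.pu (H : Bas S B) {k q : ℕ} {u : V} (h : UU S B k q u) : PU S B k q u := by
  induction h with
  | base hb => exact PU.base H hb
  | zero => exact PU.zero
  | add _ _ h1 h2 => exact h1.add h2
  | smul c _ h1 => exact h1.smul c
  | pp p r hp hr hk hu h1 =>
    subst hp; subst hr
    exact PU.pp H hk hu h1
  | pm p r hp hr hk hu h1 =>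
    subst hp; subst hr
    exact PU.pm H hk hu h1

/-- total degree `2`: only the base -/
theorem UU.two {k q : ℕ} {u : V} (h : UU S B k q u) : (k = 2 → u ∈ B) ∧ (k < 2 → u = 0) := by
  induction h with
  | base hb => exact ⟨fun _ => hb, fun h => by omega⟩
  | zero => exact ⟨fun _ => B.zero_mem, fun _ => rfl⟩
  | add _ _ h1 h2 =>
    exact ⟨fun h => B.add_mem (h1.1 h) (h2.1 h), fun h => by rw [h1.2 h, h2.2 h, add_zero]⟩
  | smul c _ h1 => exact ⟨fun h => B.smul_mem c (h1.1 h), fun h => by rw [h1.2 h, smul_zero]⟩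
  | pp p r hp hr hk hu h1 => exact ⟨fun h => by omega, fun h => by omega⟩
  | pm p r hp hr hk hu h1 => exact ⟨fun h => by omega, fun h => by omega⟩

/-- the module generated by `B` -/
def MM (S : Lad V n N) (B : Submodule ℝ V) : Submodule ℝ V := ⨆ k : ℕ, ⨆ q : ℕ, US S B k q

theorem US_le_MM (k q : ℕ) : US S B k q ≤ MM S B := le_iSup_of_le k (le_iSup (US S B k) q)

theorem B_le_MM (B : Submodule ℝ V) : B ≤ MM S B := fun _ h => US_le_MM 2 2 (UU.base h)

theorem MM_induction {C : Submodule ℝ V} (h : ∀ k q u, UU S B k q u → u ∈ C) : MM S B ≤ C :=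
  iSup_le fun k => iSup_le fun q => fun u hu => h k q u hu

theorem MM_X (H : Bas S B) {u : V} (hu : u ∈ MM S B) : S.X u ∈ MM S B := by
  have key : MM S B ≤ (MM S B).comap S.X := by
    refine MM_induction fun k q v hv => ?_
    rw [Submodule.mem_comap]
    have hty := UU.ty H hv
    have P := UU.pu H hv
    have hn := S.hn
    have hN := S.hN
    rcases lt_or_ge k 2 with hk | hk
    · rw [hv.two.2 hk, map_zero]; exact Submodule.zero_mem _
    have hk' : (2 : ℝ) ≤ k := by exact_mod_cast hk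
    have hq' : (0 : ℝ) ≤ q := Nat.cast_nonneg q
    rw [X_eq (p := (k : ℝ)) (q := (q : ℝ)) (by intro h; linarith) (by intro h; linarith) v]
    refine Submodule.add_mem _ (Submodule.add_mem _ (Submodule.add_mem _ ?_ ?_) ?_) ?_
    · exact US_le_MM (k + 1) (q + 1) (UU.pp _ _ rfl rfl hk hv)
    · rcases Nat.eq_zero_or_pos q with h1 | h1
      · subst h1
        rw [Nat.cast_zero] at hty ⊢
        rw [H.pm0 hty]; exact Submodule.zero_mem _
      · obtain ⟨q', rfl⟩ : ∃ q', q = q' + 1 := ⟨q - 1, by omega⟩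
        exact US_le_MM (k + 1) q' (UU.pm _ _ rfl (by push_cast; ring) hk hv)
    · rcases P.mp with h | ⟨k', e1, e2, h⟩
      · rw [h]; exact Submodule.zero_mem _
      · exact US_le_MM k' (q + 1) h
    · rcases Nat.eq_zero_or_pos q with h1 | h1
      · subst h1
        rw [Nat.cast_zero] at hty ⊢
        rw [H.mm0 hty]; exact Submodule.zero_mem _
      · obtain ⟨q', rfl⟩ : ∃ q', q = q' + 1 := ⟨q - 1, by omega⟩
        rcases P.mm q' rfl with h | ⟨k', e1, e2, h⟩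
        · rw [h]; exact Submodule.zero_mem _
        · exact US_le_MM k' q' h
  exact key hu

theorem MM_E (H : Bas S B) {u : V} (hu : u ∈ MM S B) : S.E u ∈ MM S B := by
  have key : MM S B ≤ (MM S B).comap S.E := by
    refine MM_induction fun k q v hv => ?_
    rw [Submodule.mem_comap, (UU.ty H hv).1]
    exact Submodule.smul_mem _ _ (US_le_MM k q hv)
  exact key hu

theorem MM_D (H : Bas S B) {u : V} (hu : u ∈ MM S B) : S.D u ∈ MM S B := by
  have key : MM S B ≤ (MM S B).comap S.D := by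
    refine MM_induction fun k q v hv => ?_
    rw [Submodule.mem_comap, (UU.ty H hv).2]
    exact Submodule.smul_mem _ _ (US_le_MM k q hv)
  exact key hu

/-- **module theorem**: a vector of total degree `0`, `1` or `2` which is orthogonal to `B` is
orthogonal to the whole module generated by `B` -/
theorem MM_orth (H : Bas S B) {g : V} {p : ℝ} (hp : p = 0 ∨ p = 1 ∨ p = 2)
    (hg : S.E g = ev n p • g) (hB : ∀ h ∈ B, S.ip g h = 0) {u : V} (hu : u ∈ MM S B) :
    S.ip g u = 0 := by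
  have hn := S.hn
  have key : MM S B ≤ LinearMap.ker (S.ip g) := by
    refine MM_induction fun k q v hv => ?_
    rw [LinearMap.mem_ker]
    rcases lt_trichotomy k 2 with hk | hk | hk
    · rw [hv.two.2 hk, map_zero]
    · exact hB v (hv.two.1 hk)
    · have hk' : (3 : ℝ) ≤ k := by exact_mod_cast hk
      have hty := UU.ty H hv
      refine orthE (S := S) ?_ hg hty.1
      refine ev_ne_of ?_ ?_
      · rcases hp with h | h | h <;> rw [h] <;> linarith
      · rcases hp with h | h | h <;> rw [h] <;> linarith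
  exact LinearMap.mem_ker.1 (key hu)

end Lad

end Vale.Agent.P207.H468
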