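import Mathlib
import Vale.Agent.P207.H468.Modu3
import Vale.Agent.P207.H468.Bridge
import Vale.Agent.P207.Low.Eig

/-!
Ladder calculus, part 13: the operator `B* B`, orthogonality of cyclic modules.
-/

namespace Vale.Agent.P207.H468

open Vale.Agent.P207

variable {W : Type*} [AddCommGroup W] [Module ℝ W]

theorem tt_iff {L : H662.Lad W} (hd : 2 ≤ L.d) (he : 0 ≤ L.e) {h : W} :
    (ofLad L hd he).Tt h ↔ Low.TT L h := by
  constructor
  · intro T
    exact ⟨(ofLad_Ty hd he).1 T.ty, T.EX⟩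
  · intro T
    exact Lad.Tt.of_EX ((ofLad_Ty hd he).2 T.typ) T.div

/-- the operator `B* B` -/
noncomputable def BB (L : H662.Lad W) (hd : 2 ≤ L.d) (he : 0 ≤ L.e) : W →ₗ[ℝ] W :=
  -((ofLad L hd he).mp 3 1 ∘ₗ (ofLad L hd he).pm 2 2)

theorem BB_apply (L : H662.Lad W) (hd : 2 ≤ L.d) (he : 0 ≤ L.e) (h : W) :
    BB L hd he h = -((ofLad L hd he).mp 3 1 ((ofLad L hd he).pm 2 2 h)) := rfl

/-- the eigenvector condition in the form of the tower -/
theorem BB_eq_iff (L : H662.Lad W) (hd : 2 ≤ L.d) (he : 0 ≤ L.e) (h : W) (b : ℝ) :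
    BB L hd he h = b • h ↔ (ofLad L hd he).mp 3 1 ((ofLad L hd he).pm 2 2 h) = -b • h := by
  rw [BB_apply, neg_eq_iff_eq_neg, neg_smul]

theorem BB_TT {L : H662.Lad W} (hd : 2 ≤ L.d) (he : 0 ≤ L.e) {h : W} (T : Low.TT L h) :
    Low.TT L (BB L hd he h) := by
  have T' := (tt_iff hd he).2 T
  have h1 := T'.bb.smul (-1)
  rw [neg_one_smul] at h1
  exact (tt_iff hd he).1 h1

theorem BB_symm {L : H662.Lad W} (hd : 2 ≤ L.d) (he : 0 ≤ L.e) {g h : W} (Tg : Low.TT L g)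
    (Th : Low.TT L h) : L.ip (BB L hd he g) h = L.ip g (BB L hd he h) := by
  have h1 := Lad.Tt.bb_symm ((tt_iff hd he).2 Tg) ((tt_iff hd he).2 Th)
  rw [BB_apply, BB_apply, map_neg, LinearMap.neg_apply, map_neg]
  exact congrArg Neg.neg h1

theorem BB_ip {L : H662.Lad W} (hd : 2 ≤ L.d) (he : 0 ≤ L.e) {g h : W} (Tg : Low.TT L g)
    (Th : Low.TT L h) : L.ip g (BB L hd he h)
      = L.ip ((ofLad L hd he).pm 2 2 g) ((ofLad L hd he).pm 2 2 h) := by
  have h1 := Lad.Tt.bb_ip ((tt_iff hd he).2 Tg) ((tt_iff hd he).2 Th)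
  rw [BB_apply, map_neg]
  have h2 : L.ip g ((ofLad L hd he).mp 3 1 ((ofLad L hd he).pm 2 2 h))
    = - L.ip ((ofLad L hd he).pm 2 2 g) ((ofLad L hd he).pm 2 2 h) := h1
  rw [h2, neg_neg]

theorem BB_nonneg {L : H662.Lad W} (hd : 2 ≤ L.d) (he : 0 ≤ L.e) {h : W} (T : Low.TT L h) :
    0 ≤ L.ip h (BB L hd he h) := by
  rw [BB_ip hd he T T]; exact L.nonneg _

theorem BB_eigen_nonneg {L : H662.Lad W} (hd : 2 ≤ L.d) (he : 0 ≤ L.e) {h : W} {b : ℝ}
    (T : Low.TT L h) (hb : BB L hd he h = b • h) (h0 : 0 < L.ip h h) : 0 ≤ b := by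
  have h1 := BB_nonneg hd he T
  rw [hb, map_smul, smul_eq_mul] at h1
  exact nonneg_of_mul_nonneg_left h1 h0

theorem bas {L : H662.Lad W} (hd : 2 ≤ L.d) (he : 0 ≤ L.e) (hd3 : 2 < L.d)
    (hdef : ∀ f, L.ip f f = 0 → f = 0) {B : Submodule ℝ W} (htt : ∀ h ∈ B, Low.TT L h)
    (hbb : ∀ h ∈ B, BB L hd he h ∈ B) (hlam : ∀ h ∈ B, L.Lam h ∈ B) :
    Lad.Bas (ofLad L hd he) B where
  tt h hh := (tt_iff hd he).2 (htt h hh)
  bb h hh := by
    have h1 := hbb h hh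
    rw [BB_apply] at h1
    have h2 := B.neg_mem h1
    rwa [neg_neg] at h2
  lam h hh := by rw [ofLad_Lam]; exact hlam h hh
  hN := by linarith
  pos f := by
    have h1 := L.L2.pos f 0
    simp only [map_zero, mul_zero, sub_zero, add_zero] at h1
    exact h1
  pos' f := L.nonneg f
  def' f hf := hdef f hf

theorem stable_MM {L : H662.Lad W} (hd : 2 ≤ L.d) (he : 0 ≤ L.e) {B : Submodule ℝ W}
    (H : Lad.Bas (ofLad L hd he) B) : Low.Stable L (Lad.MM (ofLad L hd he) B) := by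
  refine Low.Stable.of (fun u hu => Lad.MM_X H hu) ?_ (fun u hu => Lad.MM_D H hu)
  intro u hu
  have h1 : L.L1.Δ u = L.D u - L.L2.Δ u := by rw [H662.Lad.D_apply]; abel
  rw [h1]
  exact Submodule.sub_mem _ (Lad.MM_E H hu) (Lad.MM_D H hu)

theorem Mod_le_MM {L : H662.Lad W} (hd : 2 ≤ L.d) (he : 0 ≤ L.e) {B : Submodule ℝ W}
    (H : Lad.Bas (ofLad L hd he) B) : Low.Mod L (B : Set W) ≤ Lad.MM (ofLad L hd he) B :=
  Low.Mod_le (Lad.B_le_MM B) (stable_MM hd he H)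

/-- orthogonality of the cyclic modules -/
theorem perp_Mod {L : H662.Lad W} (hd : 2 ≤ L.d) (he : 0 ≤ L.e) {B : Submodule ℝ W}
    (H : Lad.Bas (ofLad L hd he) B) {s : Set W}
    (hs : ∀ g ∈ s, ∃ p : ℝ, (p = 0 ∨ p = 1 ∨ p = 2) ∧
      L.D g = (p * (p + Low.dim L - 2)) • g ∧ ∀ h ∈ B, L.ip g h = 0) :
    Low.Perp L (Low.Mod L s) (Low.Mod L (B : Set W)) := by
  have h1 : Low.Mod L s ≤ Low.perpMod L (Low.Mod L (B : Set W)) := by
    refine Low.Mod_le ?_ (Low.stable_perpMod (Low.stable_Mod L _))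
    intro g hg
    rw [SetLike.mem_coe, Low.mem_perpMod]
    intro u hu
    obtain ⟨p, hp, hg1, hg2⟩ := hs g hg
    rw [L.symm]
    exact Lad.MM_orth H hp hg1 hg2 (Mod_le_MM hd he H hu)
  intro u hu v hv
  rw [L.symm]
  exact h1 hu v hv

/-- the divergence free functions of type `(2, 2)` -/
def TTs (L : H662.Lad W) : Submodule ℝ W where
  carrier := {h | Low.TT L h}
  add_mem' := by
    intro a b ha hb
    refine ⟨⟨?_, ?_⟩, ?_⟩
    · rw [map_add, ha.typ.D2, hb.typ.D2, smul_add]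
    · rw [map_add, ha.typ.D, hb.typ.D, smul_add]
    · rw [map_add, map_add, ha.div, hb.div, smul_add]
  zero_mem' := ⟨⟨by simp, by simp⟩, by simp⟩
  smul_mem' := by
    intro c a ha
    refine ⟨⟨?_, ?_⟩, ?_⟩
    · rw [map_smul, ha.typ.D2, smul_comm]
    · rw [map_smul, ha.typ.D, smul_comm]
    · rw [map_smul, map_smul, ha.div, smul_comm]

theorem mem_TTs {L : H662.Lad W} {h : W} : h ∈ TTs L ↔ Low.TT L h := Iff.rfl

theorem bas_TTs {L : H662.Lad W} (hd : 2 ≤ L.d) (he : 0 ≤ L.e) (hd3 : 2 < L.d)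
    (hdef : ∀ f, L.ip f f = 0 → f = 0) : Lad.Bas (ofLad L hd he) (TTs L) := by
  refine bas hd he hd3 hdef (fun h hh => hh) (fun h hh => BB_TT hd he hh) ?_
  intro h hh
  have T := ((tt_iff hd he).2 (mem_TTs.1 hh)).lam
  rw [ofLad_Lam] at T
  exact (tt_iff hd he).1 T

/-- **CROSS**, scalar and `(2,0)` part against the `(2,2)` part -/
theorem cross_low {L : H662.Lad W} (he : 0 ≤ L.e) (hd3 : 2 < L.d)
    (hdef : ∀ f, L.ip f f = 0 → f = 0) :
    Low.Perp L (Low.Mod L {u | Low.Typ L 0 0 u ∨ Low.Typ L 2 0 u})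
      (Low.Mod L {h | Low.TT L h}) := by
  have hd : 2 ≤ L.d := hd3.le
  refine perp_Mod hd he (bas_TTs hd he hd3 hdef) ?_
  rintro g (hg | hg)
  · refine ⟨0, Or.inl rfl, hg.D, ?_⟩
    intro h hh
    have h1 := (ofLad_Ty hd he).2 hg
    have h2 := (ofLad_Ty hd he).2 (mem_TTs.1 hh).typ
    exact Lad.orthD (S := ofLad L hd he) (ev_ne_of (by norm_num) (by linarith)) h1.2 h2.2
  · refine ⟨2, Or.inr (Or.inr rfl), hg.D, ?_⟩
    intro h hh
    have h1 := (ofLad_Ty hd he).2 hg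
    have h2 := (ofLad_Ty hd he).2 (mem_TTs.1 hh).typ
    exact Lad.orthD (S := ofLad L hd he) (ev_ne_of (by norm_num) (by linarith)) h1.2 h2.2

/-- **CROSS**, a function orthogonal to a joint eigenvector -/
theorem cross_eigen {L : H662.Lad W} (he : 0 ≤ L.e) (hd3 : 2 < L.d)
    (hdef : ∀ f, L.ip f f = 0 → f = 0) {g h : W} {b lam : ℝ} (Tg : Low.TT L g)
    (Th : Low.TT L h) (hb : BB L hd3.le he h = b • h) (hL : L.Lam h = lam • h)
    (hgh : L.ip g h = 0) : Low.Perp L (Low.Mod L {g}) (Low.Mod L {h}) := by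
  have hd : 2 ≤ L.d := hd3.le
  have H : Lad.Bas (ofLad L hd he) (ℝ ∙ h) := by
    refine bas hd he hd3 hdef ?_ ?_ ?_
    · intro u hu
      obtain ⟨c, rfl⟩ := Submodule.mem_span_singleton.1 hu
      exact (TTs L).smul_mem c Th
    · intro u hu
      obtain ⟨c, rfl⟩ := Submodule.mem_span_singleton.1 hu
      rw [map_smul, hb]
      exact Submodule.smul_mem _ _ (Submodule.smul_mem _ _ (Submodule.mem_span_singleton_self h))
    · intro u hu
      obtain ⟨c, rfl⟩ := Submodule.mem_span_singleton.1 hu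
      rw [map_smul, hL]
      exact Submodule.smul_mem _ _ (Submodule.smul_mem _ _ (Submodule.mem_span_singleton_self h))
  have hP := perp_Mod hd he H (s := {g}) (by
    intro u hu
    rw [Set.mem_singleton_iff] at hu
    subst hu
    refine ⟨2, Or.inr (Or.inr rfl), Tg.typ.D, ?_⟩
    intro v hv
    obtain ⟨c, rfl⟩ := Submodule.mem_span_singleton.1 hv
    rw [map_smul, hgh, smul_zero])
  intro u hu v hv
  refine hP u hu v ?_
  refine Low.Mod_mono ?_ hv
  exact Set.singleton_subset_iff.2 (Submodule.mem_span_singleton_self h)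

end Vale.Agent.P207.H468
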